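import Mathlib

set_option autoImplicit false

namespace Crest.Agent.H24

open MeasureTheory Set

/-- The four-point form of log-concavity. -/
def PF2 (G : ℝ → ℝ) : Prop :=
  ∀ x d e : ℝ, 0 ≤ d → 0 ≤ e → G x * G (x + d + e) ≤ G (x + d) * G (x + e)

theorem PF2.mul_exp {G : ℝ → ℝ} (h : PF2 G) (α : ℝ) : PF2 (fun s => Real.exp (α * s) * G s) := by
  intro x d e hd he
  have h1 := h x d e hd he
  have e1 : Real.exp (α * x) * G x * (Real.exp (α * (x + d + e)) * G (x + d + e))
      = Real.exp (α * x + α * (x + d + e)) * (G x * G (x + d + e)) := by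
    rw [Real.exp_add]; ring
  have e2 : Real.exp (α * (x + d)) * G (x + d) * (Real.exp (α * (x + e)) * G (x + e))
      = Real.exp (α * x + α * (x + d + e)) * (G (x + d) * G (x + e)) := by
    have : α * x + α * (x + d + e) = α * (x + d) + α * (x + e) := by ring
    rw [this, Real.exp_add]; ring
  show Real.exp (α * x) * G x * (Real.exp (α * (x + d + e)) * G (x + d + e)) ≤
    Real.exp (α * (x + d)) * G (x + d) * (Real.exp (α * (x + e)) * G (x + e))
  rw [e1, e2]
  exact mul_le_mul_of_nonneg_left h1 (Real.exp_pos _).le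

theorem PF2.const_mul {G : ℝ → ℝ} (h : PF2 G) (c : ℝ) : PF2 (fun s => c * G s) := by
  intro x d e hd he
  have h1 := h x d e hd he
  show c * G x * (c * G (x + d + e)) ≤ c * G (x + d) * (c * G (x + e))
  nlinarith [mul_le_mul_of_nonneg_left h1 (mul_self_nonneg c)]

theorem PF2.comp_neg {G : ℝ → ℝ} (h : PF2 G) : PF2 (fun s => G (-s)) := by
  intro x d e hd he
  have h1 := h (-(x + d + e)) d e hd he
  have e1 : -(x + d + e) + d + e = -x := by ring
  have e2 : -(x + d + e) + d = -(x + e) := by ring
  have e3 : -(x + d + e) + e = -(x + d) := by ring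
  rw [e1, e2, e3] at h1
  show G (-x) * G (-(x + d + e)) ≤ G (-(x + d)) * G (-(x + e))
  linarith

theorem PF2.indicator_Ici : PF2 (fun s => if 0 ≤ s then (1 : ℝ) else 0) := by
  intro x d e hd he
  show (if 0 ≤ x then (1 : ℝ) else 0) * (if 0 ≤ x + d + e then (1 : ℝ) else 0) ≤
    (if 0 ≤ x + d then (1 : ℝ) else 0) * (if 0 ≤ x + e then (1 : ℝ) else 0)
  by_cases hx : 0 ≤ x
  · have h1 : 0 ≤ x + d := by linarith
    have h2 : 0 ≤ x + e := by linarith
    have h3 : 0 ≤ x + d + e := by linarith
    simp [hx, h1, h2, h3]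
  · simp only [hx, if_false, zero_mul]
    split_ifs <;> norm_num

/-- Translating an integral over a lower half line. -/
theorem setIntegral_Iic_add (φ : ℝ → ℝ) (x d : ℝ) :
    ∫ r in Iic (x + d), φ r = ∫ r in Iic x, φ (r + d) := by
  have h1 : ∫ r in Iic (x + d), φ r = ∫ r, (Iic (x + d)).indicator φ r :=
    (integral_indicator measurableSet_Iic).symm
  have h2 : ∫ r in Iic x, φ (r + d) = ∫ r, (Iic x).indicator (fun r => φ (r + d)) r :=
    (integral_indicator measurableSet_Iic).symm
  rw [h1, h2, ← integral_add_right_eq_self _ d]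
  congr 1
  ext r
  by_cases hr : r ≤ x
  · have : r + d ≤ x + d := by linarith
    simp [indicator, hr]
  · have : ¬ (r + d ≤ x + d) := by intro h; exact hr (by linarith)
    simp [indicator, hr]

theorem integrableOn_Iic_add {φ : ℝ → ℝ} {x d : ℝ} (h : IntegrableOn φ (Iic (x + d))) :
    IntegrableOn (fun r => φ (r + d)) (Iic x) := by
  have h1 : Integrable ((Iic (x + d)).indicator φ) := (integrable_indicator_iff measurableSet_Iic).2 h
  have h2 := h1.comp_add_right d
  rw [← integrable_indicator_iff measurableSet_Iic]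
  refine h2.congr (ae_of_all _ fun r => ?_)
  by_cases hr : r ≤ x
  · have : r + d ≤ x + d := by linarith
    simp [indicator, hr]
  · have : ¬ (r + d ≤ x + d) := by intro h; exact hr (by linarith)
    simp [indicator, hr]

theorem PF2.integral_Iic {φ : ℝ → ℝ} (h : PF2 φ) (hint : ∀ s, IntegrableOn φ (Iic s)) :
    PF2 (fun s => ∫ r in Iic s, φ r) := by
  intro x d e hd he
  show (∫ r in Iic x, φ r) * (∫ r in Iic (x + d + e), φ r) ≤
    (∫ r in Iic (x + d), φ r) * (∫ r in Iic (x + e), φ r)
  -- split
  have hsplit : ∀ y : ℝ, ∫ r in Iic (y + e), φ r = (∫ r in Iic y, φ r) + ∫ r in Ioc y (y + e), φ r := by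
    intro y
    have hu : Iic (y + e) = Iic y ∪ Ioc y (y + e) := (Iic_union_Ioc_eq_Iic (by linarith)).symm
    rw [hu, setIntegral_union (by
        rw [Set.disjoint_left]; intro z hz hz'; exact absurd hz (not_le.2 hz'.1)) measurableSet_Ioc
        (hint y) ((hint (y + e)).mono_set Ioc_subset_Iic_self)]
  have hIoc : ∫ r in Ioc (x + d) (x + d + e), φ r = ∫ t in Ioc x (x + e), φ (t + d) := by
    rw [← intervalIntegral.integral_of_le (by linarith), ← intervalIntegral.integral_of_le (by linarith),
      intervalIntegral.integral_comp_add_right]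
    congr 1
    ring
  have hIocInt : IntegrableOn (fun t => φ (t + d)) (Ioc x (x + e)) :=
    (integrableOn_Iic_add (x := x + e) (d := d) (hint _)).mono_set Ioc_subset_Iic_self
  have hIocInt0 : IntegrableOn φ (Ioc x (x + e)) := (hint (x + e)).mono_set Ioc_subset_Iic_self
  rw [hsplit x, hsplit (x + d), hIoc]
  have hUd : ∫ r in Iic (x + d), φ r = ∫ r in Iic x, φ (r + d) := setIntegral_Iic_add φ x d
  -- key inequality
  have key : (∫ r in Iic x, φ r) * (∫ t in Ioc x (x + e), φ (t + d)) ≤
      (∫ r in Iic (x + d), φ r) * ∫ t in Ioc x (x + e), φ t := by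
    rw [← integral_const_mul, ← integral_const_mul]
    apply setIntegral_mono_on (hIocInt.const_mul _) (hIocInt0.const_mul _) measurableSet_Ioc
    intro t ht
    rw [hUd, ← integral_mul_const, ← integral_mul_const]
    apply setIntegral_mono_on ((hint x).mul_const _)
      ((integrableOn_Iic_add (hint (x + d))).mul_const _) measurableSet_Iic
    intro r hr
    have h1 := h r (t - r) d (by have := ht.1; have := hr; simp at this; linarith) hd
    have e1 : r + (t - r) = t := by ring
    rw [e1] at h1
    linarith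
  nlinarith [key]


theorem integral_Ioi_sub (f : ℝ → ℝ) (s : ℝ) :
    ∫ y in Ioi (0:ℝ), f (s - y) = ∫ r in Iic s, f r := by
  rw [integral_Iic_eq_integral_Iio, ← integral_indicator measurableSet_Ioi,
    ← integral_indicator measurableSet_Iio, ← integral_sub_left_eq_self _ volume s]
  refine integral_congr_ae (ae_of_all _ fun y => ?_)
  by_cases hy : 0 < y
  · have : s - y < s := by linarith
    simp [indicator, hy]
  · have : ¬ (s - y < s) := by intro h; exact hy (by linarith)
    simp [indicator, hy]

/-- The exponential averaging operator. -/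
noncomputable def T (b : ℝ) (h : ℝ → ℝ) (s : ℝ) : ℝ :=
  ∫ x in Ioi (0:ℝ), Real.exp (-x) * h (s - b * x)

theorem T_eq_of_pos {b : ℝ} (hb : 0 < b) (h : ℝ → ℝ) (s : ℝ) :
    T b h s = b⁻¹ * (Real.exp (-(b⁻¹) * s) * ∫ r in Iic s, Real.exp (b⁻¹ * r) * h r) := by
  unfold T
  have h1 := integral_comp_mul_left_Ioi (fun y => Real.exp (-(b⁻¹ * y)) * h (s - y)) 0 hb
  have e1 : (fun x => Real.exp (-(b⁻¹ * (b * x))) * h (s - b * x)) =
      (fun x => Real.exp (-x) * h (s - b * x)) := by
    ext x
    have : b⁻¹ * (b * x) = x := by field_simp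
    rw [this]
  have h1' : ∫ x in Ioi (0:ℝ), Real.exp (-x) * h (s - b * x) =
      b⁻¹ • ∫ y in Ioi (b * 0), Real.exp (-(b⁻¹ * y)) * h (s - y) := by
    rw [← h1]
    simp only [e1]
  rw [h1', mul_zero, smul_eq_mul]
  congr 1
  rw [← integral_const_mul]
  have h2 := integral_Ioi_sub (fun r => Real.exp (-(b⁻¹) * s) * (Real.exp (b⁻¹ * r) * h r)) s
  rw [← h2]
  refine integral_congr_ae (ae_of_all _ fun y => ?_)
  show Real.exp (-(b⁻¹ * y)) * h (s - y) =
    Real.exp (-(b⁻¹) * s) * (Real.exp (b⁻¹ * (s - y)) * h (s - y))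
  rw [← mul_assoc, ← Real.exp_add]
  congr 2
  ring

theorem PF2.T_of_pos {b : ℝ} (hb : 0 < b) {h : ℝ → ℝ} (hP : PF2 h) (hm : Measurable h)
    (h0 : ∀ s, 0 ≤ h s) (h1 : ∀ s, h s ≤ 1) : PF2 (T b h) := by
  have hφ := hP.mul_exp b⁻¹
  have hint : ∀ s, IntegrableOn (fun r => Real.exp (b⁻¹ * r) * h r) (Iic s) := by
    intro s
    have hexp : IntegrableOn (fun r => Real.exp (b⁻¹ * r)) (Iic s) := by
      have := integrableOn_exp_mul_Iic (a := b⁻¹) (inv_pos.2 hb) s
      exact this
    refine Integrable.mono' hexp ?_ (ae_of_all _ fun r => ?_)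
    · exact ((Real.measurable_exp.comp (measurable_const.mul measurable_id)).mul hm).aestronglyMeasurable
    · rw [Real.norm_eq_abs, abs_of_nonneg (mul_nonneg (Real.exp_pos _).le (h0 r))]
      exact mul_le_of_le_one_right (Real.exp_pos _).le (h1 r)
  have hU := hφ.integral_Iic hint
  have hfin := (hU.mul_exp (-(b⁻¹))).const_mul b⁻¹
  have : T b h = fun s => b⁻¹ * (Real.exp (-(b⁻¹) * s) * ∫ r in Iic s, Real.exp (b⁻¹ * r) * h r) :=
    funext fun s => T_eq_of_pos hb h s
  rw [this]
  exact hfin

theorem PF2.T {b : ℝ} {h : ℝ → ℝ} (hP : PF2 h) (hm : Measurable h)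
    (h0 : ∀ s, 0 ≤ h s) (h1 : ∀ s, h s ≤ 1) : PF2 (T b h) := by
  rcases lt_trichotomy b 0 with hb | hb | hb
  · have h2 := (PF2.T_of_pos (b := -b) (by linarith) hP.comp_neg (hm.comp measurable_neg)
      (fun s => h0 _) (fun s => h1 _)).comp_neg
    have : H24.T b h = fun s => H24.T (-b) (fun s => h (-s)) (-s) := by
      funext s
      unfold H24.T
      refine integral_congr_ae (ae_of_all _ fun x => ?_)
      show Real.exp (-x) * h (s - b * x) = Real.exp (-x) * h (-(-s - -b * x))
      congr 2
      ring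
    rw [this]
    exact h2
  · subst hb
    have : H24.T 0 h = h := by
      funext s
      unfold H24.T
      simp only [zero_mul, sub_zero]
      rw [integral_mul_const, integral_exp_neg_Ioi_zero, one_mul]
    rw [this]
    exact hP
  · exact PF2.T_of_pos hb hP hm h0 h1

/-- Four-point inequality plus monotonicity and positivity gives concavity of the logarithm. -/
theorem PF2.concaveOn_log {G : ℝ → ℝ} (hP : PF2 G) (hmono : Monotone G) (hpos : ∀ s, 0 < G s) :
    ConcaveOn ℝ univ (fun s => Real.log (G s)) := by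
  set L : ℝ → ℝ := fun s => Real.log (G s) with hL
  have hLmono : Monotone L := fun x y hxy => Real.log_le_log (hpos x) (hmono hxy)
  -- increments are decreasing
  have hinc : ∀ x d e : ℝ, 0 ≤ d → 0 ≤ e → L x + L (x + d + e) ≤ L (x + d) + L (x + e) := by
    intro x d e hd he
    have h1 := hP x d e hd he
    have h2 := Real.log_le_log (mul_pos (hpos _) (hpos _)) h1
    rwa [Real.log_mul (hpos _).ne' (hpos _).ne', Real.log_mul (hpos _).ne' (hpos _).ne'] at h2
  -- the discrete sequence
  have hseq : ∀ (x h : ℝ), 0 ≤ h → ∀ m n : ℕ, m ≤ n →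
      ((n : ℝ) - m) * L x + m * L (x + n * h) ≤ n * L (x + m * h) := by
    intro x h hh m n hmn
    set f : ℕ → ℝ := fun i => L (x + i * h) with hf
    have ha : ∀ i j : ℕ, i ≤ j → f (j+1) - f j ≤ f (i+1) - f i := by
      intro i j hij
      have hd : (0:ℝ) ≤ ((j:ℝ) - i) * h := mul_nonneg (by
        have : (i:ℝ) ≤ j := by exact_mod_cast hij
        linarith) hh
      have := hinc (x + i * h) (((j:ℝ) - i) * h) h hd hh
      have e1 : x + i * h + ((j:ℝ) - i) * h + h = x + ((j + 1 : ℕ) : ℝ) * h := by push_cast; ring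
      have e2 : x + i * h + ((j:ℝ) - i) * h = x + j * h := by ring
      have e3 : x + i * h + h = x + ((i + 1 : ℕ) : ℝ) * h := by push_cast; ring
      rw [e1, e2, e3] at this
      simp only [hf]
      linarith
    set a : ℝ := f (m+1) - f m with ha'
    have hlow : ∀ i : ℕ, i ≤ m → f 0 + i * a ≤ f i := by
      intro i
      induction i with
      | zero => intro _; simp
      | succ i ih =>
        intro hi
        have h1 := ih (by omega)
        have h2 := ha i m (by omega)
        push_cast
        linarith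
    have hup : ∀ j : ℕ, f (m + j) ≤ f m + j * a := by
      intro j
      induction j with
      | zero => simp
      | succ j ih =>
        have h2 := ha m (m + j) (by omega)
        have e : m + (j + 1) = m + j + 1 := by ring
        rw [e]
        push_cast
        linarith
    have h1 := hlow m le_rfl
    obtain ⟨j, rfl⟩ := Nat.exists_eq_add_of_le hmn
    have h2 := hup j
    have hf0 : f 0 = L x := by simp [hf]
    have e1 : L (x + ((m + j : ℕ) : ℝ) * h) = f (m + j) := rfl
    have e2 : L (x + (m : ℝ) * h) = f m := rfl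
    rw [e1, e2, ← hf0]
    push_cast
    have hm0 : (0:ℝ) ≤ m := Nat.cast_nonneg m
    have hj0 : (0:ℝ) ≤ j := Nat.cast_nonneg j
    nlinarith [mul_le_mul_of_nonneg_left h1 hj0, mul_le_mul_of_nonneg_left h2 hm0]
  -- rational version
  have hrat : ∀ (x z : ℝ), x ≤ z → ∀ q : ℚ, 0 ≤ q → q ≤ 1 →
      (1 - (q:ℝ)) * L x + q * L z ≤ L (x + q * (z - x)) := by
    intro x z hxz q hq0 hq1
    have hden : (0:ℝ) < q.den := by exact_mod_cast q.den_pos
    have hnum : ((q.num.toNat : ℕ) : ℤ) = q.num := Int.toNat_of_nonneg (Rat.num_nonneg.2 hq0)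
    have hnumR : ((q.num.toNat : ℕ) : ℝ) = (q.num : ℝ) := by exact_mod_cast hnum
    have hle : q.num.toNat ≤ q.den := by
      have h1 : q.num ≤ q.den := by
        have := Rat.num_div_den q
        have hd : (0:ℚ) < q.den := by exact_mod_cast q.den_pos
        rw [← this, div_le_one hd] at hq1
        exact_mod_cast hq1
      omega
    have h := hseq x ((z - x) / q.den) (div_nonneg (by linarith) hden.le) q.num.toNat q.den hle
    have hq : (q:ℝ) = (q.num:ℝ) / q.den := by exact_mod_cast (Rat.num_div_den q).symm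
    have e1 : x + (q.den:ℝ) * ((z - x) / q.den) = z := by field_simp; ring
    have e2 : x + ((q.num.toNat : ℕ) : ℝ) * ((z - x) / q.den) = x + q * (z - x) := by
      rw [hnumR, hq]; field_simp
    rw [e1, e2, hnumR] at h
    have e3 : (q.num : ℝ) = q * q.den := by rw [hq]; field_simp
    rw [e3] at h
    have h' : (q.den:ℝ) * ((1 - (q:ℝ)) * L x + q * L z) ≤ q.den * L (x + q * (z - x)) := by
      nlinarith
    exact le_of_mul_le_mul_left h' hden
  -- real version
  have hreal : ∀ (x z : ℝ), x ≤ z → ∀ t : ℝ, 0 < t → t < 1 →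
      (1 - t) * L x + t * L z ≤ L (x + t * (z - x)) := by
    intro x z hxz t ht0 ht1
    by_contra hcon
    push_neg at hcon
    -- continuity in t of the left side
    have hcont : ContinuousAt (fun r : ℝ => (1 - r) * L x + r * L z) t := by fun_prop
    have hev := hcont.eventually (lt_mem_nhds hcon)
    obtain ⟨δ, hδ, hδ'⟩ := Metric.eventually_nhds_iff.1 hev
    obtain ⟨q, hq1, hq2⟩ := exists_rat_btwn (show max 0 (t - δ) < t from max_lt ht0 (by linarith))
    have hq0 : (0:ℝ) < q := lt_of_le_of_lt (le_max_left _ _) hq1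
    have hqδ : t - δ < q := lt_of_le_of_lt (le_max_right _ _) hq1
    have h1 := hrat x z hxz q (by exact_mod_cast hq0.le) (by
      have : (q:ℝ) ≤ 1 := by linarith
      exact_mod_cast this)
    have h2 : L (x + t * (z - x)) < (1 - (q:ℝ)) * L x + q * L z := hδ' (by
      rw [Real.dist_eq, abs_lt]; constructor <;> linarith)
    have h3 : L (x + q * (z - x)) ≤ L (x + t * (z - x)) := hLmono (by nlinarith)
    linarith
  refine ⟨convex_univ, ?_⟩
  intro x _ y _ a b ha hb hab
  simp only [smul_eq_mul]
  rcases ha.eq_or_lt with ha0 | ha0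
  · rw [← ha0] at hab ⊢
    have : b = 1 := by linarith
    simp [this]
  rcases hb.eq_or_lt with hb0 | hb0
  · rw [← hb0] at hab ⊢
    have : a = 1 := by linarith
    simp [this]
  rcases le_total x y with hxy | hxy
  · have := hreal x y hxy b hb0 (by linarith)
    have e1 : x + b * (y - x) = a * x + b * y := by
      have : a = 1 - b := by linarith
      rw [this]; ring
    rw [e1] at this
    have e2 : a = 1 - b := by linarith
    calc a * L x + b * L y = (1 - b) * L x + b * L y := by rw [e2]
      _ ≤ _ := this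
  · have := hreal y x hxy a ha0 (by linarith)
    have e1 : y + a * (x - y) = a * x + b * y := by
      have : b = 1 - a := by linarith
      rw [this]; ring
    rw [e1] at this
    have e2 : b = 1 - a := by linarith
    calc a * L x + b * L y = (1 - a) * L y + a * L x := by rw [e2]; ring
      _ ≤ _ := this

end Crest.Agent.H24
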