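import Mathlib
import Crest.Agent.H24.LogConc

set_option autoImplicit false

namespace Crest.Agent.H24

open MeasureTheory Set

/-- The standard exponential law. -/
noncomputable def nu : Measure ℝ :=
  (volume.restrict (Ioi (0:ℝ))).withDensity (fun x => ENNReal.ofReal (Real.exp (-x)))

theorem integrableOn_exp_neg : IntegrableOn (fun x : ℝ => Real.exp (-x)) (Ioi 0) :=
  integrableOn_exp_neg_Ioi 0

instance : IsProbabilityMeasure nu := by
  constructor
  rw [nu, withDensity_apply _ MeasurableSet.univ, Measure.restrict_univ,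
    ← ofReal_integral_eq_lintegral_ofReal integrableOn_exp_neg (ae_of_all _ fun x => (Real.exp_pos _).le),
    integral_exp_neg_Ioi_zero]
  simp

theorem integral_nu (f : ℝ → ℝ) : ∫ x, f x ∂nu = ∫ x in Ioi (0:ℝ), Real.exp (-x) * f x := by
  rw [nu, integral_withDensity_eq_integral_toReal_smul]
  · refine integral_congr_ae (ae_of_all _ fun x => ?_)
    simp [ENNReal.toReal_ofReal (Real.exp_pos _).le]
  · exact (Real.measurable_exp.comp measurable_neg).ennreal_ofReal
  · exact ae_of_all _ fun x => ENNReal.ofReal_lt_top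

theorem integrable_nu_iff (f : ℝ → ℝ) :
    Integrable f nu ↔ IntegrableOn (fun x => Real.exp (-x) * f x) (Ioi (0:ℝ)) := by
  rw [nu, integrable_withDensity_iff_integrable_smul']
  · rw [IntegrableOn]
    refine integrable_congr (ae_of_all _ fun x => ?_)
    simp [ENNReal.toReal_ofReal (Real.exp_pos _).le]
  · exact (Real.measurable_exp.comp measurable_neg).ennreal_ofReal
  · exact ae_of_all _ fun x => ENNReal.ofReal_lt_top

/-- The product law. -/
noncomputable def P (N : ℕ) : Measure (Fin N → ℝ) := Measure.pi (fun _ => nu)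

instance (N : ℕ) : IsProbabilityMeasure (P N) := by unfold P; infer_instance

theorem P_eq (N : ℕ) : P N = (volume.restrict (Set.pi univ (fun _ : Fin N => Ioi (0:ℝ)))).withDensity
    (fun x => ENNReal.ofReal (Real.exp (-∑ i, x i))) := by
  unfold P
  refine Measure.pi_eq (μ := fun _ : Fin N => nu) fun s hs => ?_
  have hms : MeasurableSet (Set.pi univ s) := MeasurableSet.univ_pi hs
  rw [withDensity_apply _ hms]
  have hvol : (volume : Measure (Fin N → ℝ)).restrict (Set.pi univ (fun _ : Fin N => Ioi (0:ℝ))) =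
      Measure.pi (fun _ : Fin N => volume.restrict (Ioi (0:ℝ))) := by
    rw [volume_pi, Measure.restrict_pi_pi]
  rw [hvol, Measure.restrict_pi_pi]
  have hprod : ∀ x : Fin N → ℝ, Real.exp (-∑ i, x i) = ∏ i, Real.exp (-(x i)) := by
    intro x
    rw [← Real.exp_sum, Finset.sum_neg_distrib]
  have hI : ∀ i : Fin N, Integrable (fun x : ℝ => Real.exp (-x)) ((volume.restrict (Ioi (0:ℝ))).restrict (s i)) := by
    intro i
    exact Integrable.restrict integrableOn_exp_neg
  have hint : Integrable (fun x : Fin N → ℝ => ∏ i, Real.exp (-(x i)))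
      (Measure.pi (fun i : Fin N => (volume.restrict (Ioi (0:ℝ))).restrict (s i))) :=
    Integrable.fintype_prod (f := fun _ x => Real.exp (-x)) hI
  simp only [hprod]
  rw [← ofReal_integral_eq_lintegral_ofReal hint
    (ae_of_all _ fun x => Finset.prod_nonneg fun i _ => (Real.exp_pos _).le)]
  rw [integral_fintype_prod_eq_prod (f := fun _ x => Real.exp (-x)),
    ENNReal.ofReal_prod_of_nonneg (fun i _ => integral_nonneg fun x => (Real.exp_pos _).le)]
  refine Finset.prod_congr rfl fun i _ => ?_
  rw [nu, withDensity_apply _ (hs i),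
    ofReal_integral_eq_lintegral_ofReal (hI i) (ae_of_all _ fun x => (Real.exp_pos _).le)]

theorem integral_P {N : ℕ} (φ : (Fin N → ℝ) → ℝ) :
    ∫ x, φ x ∂(P N) = ∫ x in Set.pi univ (fun _ : Fin N => Ioi (0:ℝ)), φ x * Real.exp (-∑ i, x i) := by
  rw [P_eq, integral_withDensity_eq_integral_toReal_smul]
  · refine integral_congr_ae (ae_of_all _ fun x => ?_)
    simp [ENNReal.toReal_ofReal (Real.exp_pos _).le, mul_comm]
  · apply Measurable.ennreal_ofReal
    fun_prop
  · exact ae_of_all _ fun x => ENNReal.ofReal_lt_top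

/-- Distribution function of the linear form. -/
noncomputable def cdfN (N : ℕ) (b : Fin N → ℝ) (s : ℝ) : ℝ :=
  (P N).real {x | ∑ i, b i * x i ≤ s}

theorem cdfN_nonneg (N : ℕ) (b : Fin N → ℝ) (s : ℝ) : 0 ≤ cdfN N b s := measureReal_nonneg

theorem cdfN_le_one (N : ℕ) (b : Fin N → ℝ) (s : ℝ) : cdfN N b s ≤ 1 := measureReal_le_one

theorem cdfN_mono (N : ℕ) (b : Fin N → ℝ) : Monotone (cdfN N b) := by
  intro s t hst
  exact measureReal_mono (fun x hx => le_trans hx hst)

theorem cdfN_zero (b : Fin 0 → ℝ) : cdfN 0 b = fun s => if 0 ≤ s then (1:ℝ) else 0 := by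
  funext s
  unfold cdfN
  by_cases hs : 0 ≤ s
  · simp [hs]
  · simp [hs]

theorem cdfN_succ (N : ℕ) (b : Fin (N+1) → ℝ) :
    cdfN (N+1) b = T (b 0) (cdfN N (fun i => b i.succ)) := by
  funext s
  have hmp := measurePreserving_piFinSuccAbove (fun _ : Fin (N+1) => nu) 0
  set A : Set (ℝ × (Fin N → ℝ)) := {p | b 0 * p.1 + ∑ i, b i.succ * p.2 i ≤ s} with hA
  have hAm : MeasurableSet A := by
    apply measurableSet_le
    · fun_prop
    · exact measurable_const
  have hset : {x : Fin (N+1) → ℝ | ∑ i, b i * x i ≤ s} =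
      (MeasurableEquiv.piFinSuccAbove (fun _ => ℝ) (0 : Fin (N+1))) ⁻¹' A := by
    ext x
    simp only [mem_ofPred_eq, mem_preimage, hA, Fin.sum_univ_succ]
    rfl
  have h1 : (P (N+1)) {x : Fin (N+1) → ℝ | ∑ i, b i * x i ≤ s} = (nu.prod (P N)) A := by
    rw [hset]
    exact hmp.measure_preimage hAm.nullMeasurableSet
  have h2 : cdfN (N+1) b s = ((nu.prod (P N)) A).toReal := by
    unfold cdfN
    rw [measureReal_def, h1]
  rw [h2, Measure.prod_apply hAm]
  have h3 : ∀ x : ℝ, (P N) (Prod.mk x ⁻¹' A) = ENNReal.ofReal (cdfN N (fun i => b i.succ) (s - b 0 * x)) := by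
    intro x
    unfold cdfN
    rw [ofReal_measureReal]
    congr 1
    ext y
    simp only [hA, mem_preimage, mem_ofPred_eq]
    constructor <;> intro h <;> linarith
  simp only [h3]
  have hmeas : Measurable (fun x => cdfN N (fun i => b i.succ) (s - b 0 * x)) := by
    apply (cdfN_mono N _).measurable.comp
    fun_prop
  rw [← integral_eq_lintegral_of_nonneg_ae (ae_of_all _ fun x => cdfN_nonneg _ _ _)
    hmeas.aestronglyMeasurable, integral_nu]
  rfl

theorem cdfN_PF2 (N : ℕ) (b : Fin N → ℝ) : PF2 (cdfN N b) := by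
  induction N with
  | zero => rw [cdfN_zero]; exact PF2.indicator_Ici
  | succ N ih =>
    rw [cdfN_succ]
    exact PF2.T (ih _) (cdfN_mono N _).measurable (cdfN_nonneg N _) (cdfN_le_one N _)


theorem integrableOn_meas_le {α : Type*} [MeasurableSpace α] {μ : Measure α} [IsProbabilityMeasure μ]
    {f : α → ℝ} (hf : Integrable f μ) (h0 : ∀ x, 0 ≤ f x) :
    IntegrableOn (fun t => μ.real {a | t ≤ f a}) (Ioi 0) := by
  have hanti : Antitone (fun t => μ.real {a | t ≤ f a}) := by
    intro t t' htt'
    exact measureReal_mono (fun x hx => le_trans htt' hx)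
  refine ⟨hanti.measurable.aestronglyMeasurable, ?_⟩
  have h1 := lintegral_eq_lintegral_meas_le μ (ae_of_all _ h0) hf.aemeasurable
  have h2 : ∫⁻ t in Ioi (0:ℝ), ‖μ.real {a | t ≤ f a}‖ₑ = ∫⁻ t in Ioi (0:ℝ), μ {a | t ≤ f a} := by
    refine lintegral_congr fun t => ?_
    rw [Real.enorm_eq_ofReal measureReal_nonneg, ofReal_measureReal]
  rw [HasFiniteIntegral, h2, ← h1, ← ofReal_integral_eq_lintegral_ofReal hf (ae_of_all _ h0)]
  exact ENNReal.ofReal_lt_top

/-- The distribution function has the integral dictated by the mean. -/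
theorem cdf_integral {α : Type*} [MeasurableSpace α] {μ : Measure α} [IsProbabilityMeasure μ]
    {X : α → ℝ} (hX : Integrable X μ) (hXm : Measurable X) :
    Integrable (fun s => μ.real {a | X a ≤ s} - (if 0 ≤ s then (1:ℝ) else 0)) ∧
      ∫ s, (μ.real {a | X a ≤ s} - (if 0 ≤ s then (1:ℝ) else 0)) = - ∫ a, X a ∂μ := by
  set G : ℝ → ℝ := fun s => μ.real {a | X a ≤ s} with hG
  -- positive part
  have hpos : Integrable (fun a => max (X a) 0) μ := hX.pos_part
  have hneg : Integrable (fun a => max (-(X a)) 0) μ := hX.neg_part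
  have hp1 := hpos.integral_eq_integral_meas_lt (ae_of_all _ fun a => le_max_right _ _)
  have hn1 := hneg.integral_eq_integral_meas_le (ae_of_all _ fun a => le_max_right _ _)
  have hn2 := integrableOn_meas_le hneg (fun a => le_max_right _ _)
  have hp2 : IntegrableOn (fun t => 1 - G t) (Ioi 0) := by
    have := integrableOn_meas_le hpos (fun a => le_max_right _ _)
    refine Integrable.mono' this ?_ ?_
    · have : Monotone G := by
        intro s t hst
        exact measureReal_mono (fun x hx => le_trans hx hst)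
      exact (measurable_const.sub this.measurable).aestronglyMeasurable
    · refine (ae_restrict_iff' measurableSet_Ioi).2 (ae_of_all _ fun t ht => ?_)
      rw [Real.norm_eq_abs, abs_of_nonneg (by have : G t ≤ 1 := measureReal_le_one; linarith)]
      have h1 : 1 - G t = μ.real {a | t < X a} := by
        have h2 : {a | t < X a} = {a | X a ≤ t}ᶜ := by ext a; simp
        rw [h2, probReal_compl_eq_one_sub (measurableSet_le hXm measurable_const)]
      rw [h1]
      refine measureReal_mono fun a ha => ?_
      have ha' : t < X a := ha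
      exact le_trans ha'.le (le_max_left _ _)
  have hp3 : ∫ a, max (X a) 0 ∂μ = ∫ t in Ioi (0:ℝ), (1 - G t) := by
    rw [hp1]
    refine setIntegral_congr_fun measurableSet_Ioi fun t ht => ?_
    have h2 : {a | t < max (X a) 0} = {a | X a ≤ t}ᶜ := by
      ext a
      simp only [mem_Ioi] at ht
      simp [ht.le]
    simp only [h2]
    rw [probReal_compl_eq_one_sub (measurableSet_le hXm measurable_const)]
  have hset : ∀ t : ℝ, t ∈ Ioi (0:ℝ) → μ.real {a | t ≤ max (-(X a)) 0} = G (-t) := by
    intro t ht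
    simp only [mem_Ioi] at ht
    have : {a | t ≤ max (-(X a)) 0} = {a | X a ≤ -t} := by
      ext a
      simp only [Set.mem_ofPred_eq, le_max_iff]
      constructor
      · rintro (h | h)
        · linarith
        · linarith
      · intro h; left; linarith
    rw [this]
  have hn3 : ∫ a, max (-(X a)) 0 ∂μ = ∫ s in Iic (0:ℝ), G s := by
    rw [hn1]
    have h1 : ∫ t in Ioi (0:ℝ), μ.real {a | t ≤ max (-(X a)) 0} = ∫ t in Ioi (0:ℝ), G (-t) :=
      setIntegral_congr_fun measurableSet_Ioi hset
    rw [h1, integral_comp_neg_Ioi]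
    simp
  have hn4 : IntegrableOn G (Iic 0) := by
    have h1 : IntegrableOn (fun t => G (-t)) (Ioi 0) :=
      (integrableOn_congr_fun hset measurableSet_Ioi).1 hn2
    rw [integrableOn_Iic_iff_integrableOn_Iio, ← integrable_indicator_iff measurableSet_Iio]
    have h2 := ((integrable_indicator_iff measurableSet_Ioi).2 h1).comp_neg
    refine h2.congr (ae_of_all _ fun r => ?_)
    by_cases hr : r < 0
    · have : 0 < -r := by linarith
      simp [indicator, hr]
    · simp [indicator, hr]
  set D : ℝ → ℝ := fun s => G s - (if 0 ≤ s then (1:ℝ) else 0) with hD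
  have hDp : IntegrableOn D (Ioi 0) := by
    refine (integrableOn_congr_fun (fun t ht => ?_) measurableSet_Ioi).1 hp2.neg
    simp only [mem_Ioi] at ht
    simp [hD, ht.le]
  have hDn : IntegrableOn D (Iic 0) := by
    rw [integrableOn_Iic_iff_integrableOn_Iio]
    refine (integrableOn_congr_fun (fun t ht => ?_) measurableSet_Iio).1 (hn4.mono_set Iio_subset_Iic_self)
    simp only [mem_Iio] at ht
    simp [hD, not_le.2 ht]
  have hDint : Integrable D := by
    rw [← integrableOn_univ, ← Iic_union_Ioi (a := (0:ℝ))]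
    exact hDn.union hDp
  refine ⟨hDint, ?_⟩
  have hsplit : ∫ s, D s = (∫ s in Iic 0, D s) + ∫ s in Ioi 0, D s := by
    have := integral_add_compl (measurableSet_Iic (a := (0:ℝ))) hDint
    rw [← this, compl_Iic]
  have hX' : ∫ a, X a ∂μ = (∫ a, max (X a) 0 ∂μ) - ∫ a, max (-(X a)) 0 ∂μ := by
    rw [← integral_sub hpos hneg]
    refine integral_congr_ae (ae_of_all _ fun a => ?_)
    show X a = max (X a) 0 - max (-(X a)) 0
    rcases le_total 0 (X a) with h | h
    · rw [max_eq_left h, max_eq_right (by linarith)]; ring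
    · rw [max_eq_right h, max_eq_left (by linarith)]; ring
  show ∫ s, D s = _
  rw [hsplit, hX', hp3, hn3]
  have e1 : ∫ s in Ioi 0, D s = - ∫ t in Ioi (0:ℝ), (1 - G t) := by
    rw [← integral_neg]
    refine setIntegral_congr_fun measurableSet_Ioi fun t ht => ?_
    simp only [mem_Ioi] at ht
    simp [hD, ht.le]
  have e2 : ∫ s in Iic 0, D s = ∫ s in Iic (0:ℝ), G s := by
    rw [integral_Iic_eq_integral_Iio, integral_Iic_eq_integral_Iio]
    refine setIntegral_congr_fun measurableSet_Iio fun t ht => ?_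
    simp only [mem_Iio] at ht
    simp [hD, not_le.2 ht]
  rw [e1, e2]
  ring

end Crest.Agent.H24
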