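import Mathlib
import Crest.Agent.H24.ExpLaw

set_option autoImplicit false

namespace Crest.Agent.H24

open MeasureTheory Set Filter Topology

/-- Heaviside function. -/
noncomputable def Hv (s : ℝ) : ℝ := if 0 ≤ s then (1:ℝ) else 0

/-- comparison distribution functions -/
noncomputable def Gc (α s0 s : ℝ) : ℝ := min 1 (Real.exp (α * (s - s0) - 1))

theorem integrableOn_mul_exp {r : ℝ} (hr : 0 < r) (x : ℝ) :
    IntegrableOn (fun τ : ℝ => τ * Real.exp (-(r * τ))) (Ioi x) ∧
      ∫ τ in Ioi x, τ * Real.exp (-(r * τ)) = Real.exp (-(r * x)) * (x / r + 1 / r ^ 2) := by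
  have hderiv : ∀ τ : ℝ, HasDerivAt (fun τ : ℝ => -(Real.exp (-(r * τ)) * (τ / r + 1 / r ^ 2)))
      (τ * Real.exp (-(r * τ))) τ := by
    intro τ
    have h1 : HasDerivAt (fun τ : ℝ => Real.exp (-(r * τ))) (Real.exp (-(r * τ)) * (-r)) τ := by
      have : HasDerivAt (fun τ : ℝ => -(r * τ)) (-(r * 1)) τ := ((hasDerivAt_id τ).const_mul r).neg
      exact this.exp.congr_deriv (by ring)
    have h2 : HasDerivAt (fun τ : ℝ => τ / r + 1 / r ^ 2) (1 / r) τ := by
      have := ((hasDerivAt_id τ).div_const r).add_const (1 / r ^ 2)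
      exact this
    refine HasDerivAt.congr_deriv (h1.mul h2).neg ?_
    field_simp
    ring
  have hlim : Tendsto (fun τ : ℝ => -(Real.exp (-(r * τ)) * (τ / r + 1 / r ^ 2))) atTop (𝓝 0) := by
    have h1 : Tendsto (fun τ : ℝ => Real.exp (-(r * τ))) atTop (𝓝 0) := by
      have : Tendsto (fun τ : ℝ => r * τ) atTop atTop := tendsto_id.const_mul_atTop hr
      exact Real.tendsto_exp_neg_atTop_nhds_zero.comp this
    have h2 : Tendsto (fun τ : ℝ => τ * Real.exp (-(r * τ))) atTop (𝓝 0) := by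
      have := Real.tendsto_pow_mul_exp_neg_atTop_nhds_zero 1
      have h3 : Tendsto (fun τ : ℝ => r * τ) atTop atTop := tendsto_id.const_mul_atTop hr
      have h4 := this.comp h3
      have h5 := h4.const_mul (r⁻¹)
      rw [mul_zero] at h5
      refine h5.congr fun τ => ?_
      simp only [Function.comp]
      field_simp
    have h3 := ((h2.div_const r).add (h1.mul_const (1 / r ^ 2))).neg
    simp only [zero_div, zero_mul, add_zero, neg_zero] at h3
    refine h3.congr fun τ => ?_
    ring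
  by_cases hx : 0 ≤ x
  · have hpos : ∀ τ ∈ Ioi x, 0 ≤ τ * Real.exp (-(r * τ)) := by
      intro τ hτ
      have : x < τ := hτ
      exact mul_nonneg (by linarith) (Real.exp_pos _).le
    have hint := integrableOn_Ioi_deriv_of_nonneg' (fun τ _ => hderiv τ) hpos hlim
    refine ⟨hint, ?_⟩
    have := integral_Ioi_of_hasDerivAt_of_tendsto' (fun τ _ => hderiv τ) hint hlim
    rw [this]
    ring
  · push Not at hx
    have hpos : ∀ τ ∈ Ioi (0:ℝ), 0 ≤ τ * Real.exp (-(r * τ)) := by
      intro τ hτ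
      have : 0 < τ := hτ
      exact mul_nonneg (by linarith) (Real.exp_pos _).le
    have hint0 := integrableOn_Ioi_deriv_of_nonneg' (fun τ _ => hderiv τ) hpos hlim
    have hint : IntegrableOn (fun τ : ℝ => τ * Real.exp (-(r * τ))) (Ioi x) := by
      rw [← Ioc_union_Ioi_eq_Ioi hx.le]
      refine IntegrableOn.union ?_ hint0
      have : Continuous (fun τ : ℝ => τ * Real.exp (-(r * τ))) := by fun_prop
      exact (this.integrableOn_Icc (a := x) (b := 0)).mono_set Ioc_subset_Icc_self
    refine ⟨hint, ?_⟩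
    have := integral_Ioi_of_hasDerivAt_of_tendsto' (fun τ _ => hderiv τ) hint hlim
    rw [this]
    ring

theorem integral_mul_exp_neg (x : ℝ) :
    ∫ τ in (0:ℝ)..x, τ * Real.exp (-τ) = 1 - (1 + x) * Real.exp (-x) := by
  have hderiv : ∀ τ : ℝ, HasDerivAt (fun τ : ℝ => -((1 + τ) * Real.exp (-τ)))
      (τ * Real.exp (-τ)) τ := by
    intro τ
    have h1 : HasDerivAt (fun τ : ℝ => Real.exp (-τ)) (Real.exp (-τ) * (-1)) τ :=
      (hasDerivAt_neg τ).exp
    have h2 : HasDerivAt (fun τ : ℝ => 1 + τ) 1 τ := (hasDerivAt_id τ).const_add 1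
    refine HasDerivAt.congr_deriv (h2.mul h1).neg ?_
    ring
  rw [intervalIntegral.integral_eq_sub_of_hasDerivAt (fun τ _ => hderiv τ)
    ((by fun_prop : Continuous (fun τ : ℝ => τ * Real.exp (-τ))).intervalIntegrable _ _)]
  simp
  ring

theorem integrableOn_kern : IntegrableOn (fun τ : ℝ => τ * Real.exp (-τ)) (Ioi 0) := by
  have := (integrableOn_mul_exp one_pos 0).1
  simpa using this

theorem integral_kern : ∫ τ in Ioi (0:ℝ), τ * Real.exp (-τ) = 1 := by
  have := (integrableOn_mul_exp one_pos 0).2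
  simpa using this

/-- Integrability of the kernel against a bounded measurable function. -/
theorem integrableOn_kern_mul {f : ℝ → ℝ} (hf : Measurable f) (h0 : ∀ s, 0 ≤ f s) (h1 : ∀ s, f s ≤ 1) :
    IntegrableOn (fun τ : ℝ => τ * Real.exp (-τ) * f (4/3 - τ)) (Ioi 0) := by
  refine Integrable.mono' integrableOn_kern ?_ ?_
  · apply Measurable.aestronglyMeasurable
    exact (measurable_id.mul (Real.measurable_exp.comp measurable_neg)).mul
      (hf.comp (measurable_const.sub measurable_id))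
  · refine (ae_restrict_iff' measurableSet_Ioi).2 (ae_of_all _ fun τ hτ => ?_)
    have hτ' : 0 < τ := hτ
    have hk : 0 ≤ τ * Real.exp (-τ) := mul_nonneg hτ'.le (Real.exp_pos _).le
    rw [Real.norm_eq_abs, abs_of_nonneg (mul_nonneg hk (h0 _))]
    exact mul_le_of_le_one_right hk (h1 _)

theorem Gc_nonneg (α s0 s : ℝ) : 0 ≤ Gc α s0 s := le_min zero_le_one (Real.exp_pos _).le
theorem Gc_le_one (α s0 s : ℝ) : Gc α s0 s ≤ 1 := min_le_left _ _
theorem Gc_measurable (α s0 : ℝ) : Measurable (Gc α s0) := by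
  unfold Gc
  fun_prop

theorem exp_poly (x : ℝ) (hx : 0 ≤ x) : 1 + x + x ^ 2 / 2 + x ^ 3 / 6 ≤ Real.exp x := by
  have := Real.sum_le_exp_of_nonneg hx 4
  simp [Finset.sum_range_succ, Nat.factorial] at this
  linarith

theorem exp_third : 49 / 36 ≤ Real.exp (1/3) := by
  have := exp_poly (1/3) (by norm_num)
  norm_num at this ⊢
  linarith

/-- The one-parameter minimization. -/
theorem value_ge {α : ℝ} (hα : 0 < α) :
    4 / 9 * Real.exp (-(1/3)) ≤ ∫ τ in Ioi (0:ℝ), τ * Real.exp (-τ) * Gc α 0 (4/3 - τ) := by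
  rcases le_or_gt α (3/4) with h | h
  · have hcongr : ∫ τ in Ioi (0:ℝ), τ * Real.exp (-τ) * Gc α 0 (4/3 - τ) =
        ∫ τ in Ioi (0:ℝ), Real.exp (4/3 * α - 1) * (τ * Real.exp (-((1 + α) * τ))) := by
      refine setIntegral_congr_fun measurableSet_Ioi fun τ hτ => ?_
      have hτ' : 0 < τ := hτ
      have h1 : Gc α 0 (4/3 - τ) = Real.exp (α * (4/3 - τ - 0) - 1) := by
        unfold Gc
        apply min_eq_right
        rw [Real.exp_le_one_iff]
        nlinarith
      simp only [h1]
      have : Real.exp (-τ) * Real.exp (α * (4/3 - τ - 0) - 1) =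
          Real.exp (4/3 * α - 1) * Real.exp (-((1 + α) * τ)) := by
        rw [← Real.exp_add, ← Real.exp_add]
        congr 1; ring
      calc τ * Real.exp (-τ) * Real.exp (α * (4/3 - τ - 0) - 1)
          = τ * (Real.exp (-τ) * Real.exp (α * (4/3 - τ - 0) - 1)) := by ring
        _ = _ := by rw [this]; ring
    rw [hcongr, integral_const_mul, (integrableOn_mul_exp (show (0:ℝ) < 1 + α by linarith) 0).2]
    simp only [mul_zero, neg_zero, Real.exp_zero, zero_div, zero_add, one_mul]
    -- e^{4α/3-1}/(1+α)^2 ≥ 4/9 e^{-1/3}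
    have h1 : (1 + α) / (3/2) ≤ Real.exp ((1 + α) / (3/2) - 1) := by
      have := Real.add_one_le_exp ((1 + α) / (3/2) - 1)
      linarith
    have h2 : ((1 + α) / (3/2)) ^ 2 ≤ Real.exp (4/3 * α - 2/3) := by
      have h3 : Real.exp (4/3 * α - 2/3) = Real.exp ((1 + α) / (3/2) - 1) ^ 2 := by
        rw [← Real.exp_nat_mul]
        congr 1
        push_cast
        ring
      rw [h3]
      exact pow_le_pow_left₀ (by positivity) h1 2
    have h4 : Real.exp (4/3 * α - 1) = Real.exp (4/3 * α - 2/3) * Real.exp (-(1/3)) := by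
      rw [← Real.exp_add]; congr 1; ring
    rw [h4, mul_one_div, le_div_iff₀ (by positivity)]
    have h5 : 4 / 9 * (1 + α) ^ 2 ≤ Real.exp (4/3 * α - 2/3) := by
      have : ((1 + α) / (3/2)) ^ 2 = 4 / 9 * (1 + α) ^ 2 := by ring
      linarith
    nlinarith [Real.exp_pos (-(1/3:ℝ))]
  · -- α > 3/4
    set c : ℝ := α⁻¹ with hc
    have hc0 : 0 < c := inv_pos.2 hα
    have hc1 : c < 4/3 := by
      rw [hc]
      have := inv_lt_inv₀ hα (by norm_num : (0:ℝ) < 3/4)
      have h2 := this.2 h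
      norm_num at h2
      exact h2
    have hαc : α = c⁻¹ := by rw [hc, inv_inv]
    set x : ℝ := 4/3 - c with hx
    have hx0 : 0 < x := by rw [hx]; linarith
    have hsplit : ∫ τ in Ioi (0:ℝ), τ * Real.exp (-τ) * Gc α 0 (4/3 - τ) =
        (∫ τ in Ioc (0:ℝ) x, τ * Real.exp (-τ) * Gc α 0 (4/3 - τ)) +
        ∫ τ in Ioi x, τ * Real.exp (-τ) * Gc α 0 (4/3 - τ) := by
      have hi := integrableOn_kern_mul (Gc_measurable α 0) (Gc_nonneg α 0) (Gc_le_one α 0)
      rw [← Ioc_union_Ioi_eq_Ioi hx0.le]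
      exact setIntegral_union (by
        rw [Set.disjoint_left]; intro z hz hz'; exact absurd hz' (not_lt.2 hz.2)) measurableSet_Ioi
        (hi.mono_set Ioc_subset_Ioi_self) (hi.mono_set (Ioi_subset_Ioi hx0.le))
    have h1 : ∫ τ in Ioc (0:ℝ) x, τ * Real.exp (-τ) * Gc α 0 (4/3 - τ) =
        1 - (1 + x) * Real.exp (-x) := by
      rw [← integral_mul_exp_neg x, intervalIntegral.integral_of_le hx0.le]
      refine setIntegral_congr_fun measurableSet_Ioc fun τ hτ => ?_
      have h1 : Gc α 0 (4/3 - τ) = 1 := by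
        unfold Gc
        apply min_eq_left
        rw [Real.one_le_exp_iff]
        have : c ≤ 4/3 - τ - 0 := by have := hτ.2; rw [hx] at this; linarith
        have h2 : α * c ≤ α * (4/3 - τ - 0) := mul_le_mul_of_nonneg_left this hα.le
        have h3 : α * c = 1 := by rw [hc]; field_simp
        linarith
      simp only [h1, mul_one]
    have h2 : ∫ τ in Ioi x, τ * Real.exp (-τ) * Gc α 0 (4/3 - τ) =
        Real.exp (4/3 * α - 1) * (Real.exp (-((1 + α) * x)) * (x / (1 + α) + 1 / (1 + α) ^ 2)) := by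
      rw [← (integrableOn_mul_exp (show (0:ℝ) < 1 + α by linarith) x).2, ← integral_const_mul]
      refine setIntegral_congr_fun measurableSet_Ioi fun τ hτ => ?_
      have hτ' : x < τ := hτ
      have h1 : Gc α 0 (4/3 - τ) = Real.exp (α * (4/3 - τ - 0) - 1) := by
        unfold Gc
        apply min_eq_right
        rw [Real.exp_le_one_iff]
        have : 4/3 - τ - 0 ≤ c := by rw [hx] at hτ'; linarith
        have h2 : α * (4/3 - τ - 0) ≤ α * c := mul_le_mul_of_nonneg_left this hα.le
        have h3 : α * c = 1 := by rw [hc]; field_simp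
        linarith
      simp only [h1]
      have : Real.exp (-τ) * Real.exp (α * (4/3 - τ - 0) - 1) =
          Real.exp (4/3 * α - 1) * Real.exp (-((1 + α) * τ)) := by
        rw [← Real.exp_add, ← Real.exp_add]
        congr 1; ring
      calc τ * Real.exp (-τ) * Real.exp (α * (4/3 - τ - 0) - 1)
          = τ * (Real.exp (-τ) * Real.exp (α * (4/3 - τ - 0) - 1)) := by ring
        _ = _ := by rw [this]; ring
    rw [hsplit, h1, h2]
    have h3 : Real.exp (4/3 * α - 1) * (Real.exp (-((1 + α) * x)) * (x / (1 + α) + 1 / (1 + α) ^ 2)) =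
        Real.exp (-x) * (x / (1 + α) + 1 / (1 + α) ^ 2) := by
      rw [← mul_assoc, ← Real.exp_add]
      congr 2
      have h3 : α * c = 1 := by rw [hc]; field_simp
      rw [hx]
      linarith
    rw [h3]
    have h4 : x / (1 + α) + 1 / (1 + α) ^ 2 = x * c / (1 + c) + c ^ 2 / (1 + c) ^ 2 := by
      rw [hαc]
      field_simp
      ring
    rw [h4]
    have hcx : c = 4/3 - x := by rw [hx]; ring
    have hexp : 1 + x + x ^ 2 / 2 + x ^ 3 / 6 ≤ Real.exp x := exp_poly x hx0.le
    -- main polynomial inequality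
    have h5 : (1 + x) - (x * c / (1 + c) + c ^ 2 / (1 + c) ^ 2) ≤ 33/49 * Real.exp x := by
      have hx43 : x < 4/3 := by rw [hx]; linarith
      have h6 : (1 + x) - (x * c / (1 + c) + c ^ 2 / (1 + c) ^ 2) =
          (11/3 + x/3 - x^2) / (7/3 - x) ^ 2 := by
        have : (1 + c) = 7/3 - x := by rw [hcx]; ring
        rw [this, hcx]
        obtain ⟨y, hy⟩ : ∃ y, y = 7/3 - x := ⟨_, rfl⟩
        have hxy : x = 7/3 - y := by linarith
        have h7 : y ≠ 0 := by linarith
        rw [← hy, hxy]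
        field_simp
        ring
      rw [h6, div_le_iff₀ (by nlinarith)]
      have h8 : 11/3 + x/3 - x^2 ≤ 33/49 * (1 + x + x ^ 2 / 2 + x ^ 3 / 6) * (7/3 - x) ^ 2 := by
        have h9 : 0 ≤ 28/3 + 107/6 * x - 253/18 * x^2 - 55/6 * x^3 + 11/2 * x^4 := by
          have hxx : 0 ≤ x * (4/3 - x) := mul_nonneg hx0.le (by linarith)
          nlinarith [mul_nonneg hx0.le hx0.le, mul_nonneg hxx hx0.le, mul_nonneg hxx hxx, sq_nonneg (x^2 - 1), sq_nonneg (x - 1)]
        have h10 : 33/49 * (1 + x + x ^ 2 / 2 + x ^ 3 / 6) * (7/3 - x) ^ 2 - (11/3 + x/3 - x^2) =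
            (1/49) * (x * (28/3 + 107/6 * x - 253/18 * x^2 - 55/6 * x^3 + 11/2 * x^4)) := by ring
        have := mul_nonneg hx0.le h9
        linarith
      calc 11/3 + x/3 - x^2 ≤ 33/49 * (1 + x + x ^ 2 / 2 + x ^ 3 / 6) * (7/3 - x) ^ 2 := h8
        _ ≤ 33/49 * Real.exp x * (7/3 - x) ^ 2 := by
          apply mul_le_mul_of_nonneg_right _ (sq_nonneg _)
          linarith
    have h6 : Real.exp (-x) * ((1 + x) - (x * c / (1 + c) + c ^ 2 / (1 + c) ^ 2)) ≤ 33/49 := by
      calc _ ≤ Real.exp (-x) * (33/49 * Real.exp x) :=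
            mul_le_mul_of_nonneg_left h5 (Real.exp_pos _).le
        _ = 33/49 * (Real.exp (-x) * Real.exp x) := by ring
        _ = 33/49 := by rw [← Real.exp_add]; simp
    have h7 : Real.exp (-(1/3)) ≤ 36/49 := by
      rw [Real.exp_neg, inv_le_comm₀ (Real.exp_pos _) (by norm_num)]
      have := exp_third
      norm_num
      linarith
    nlinarith

end Crest.Agent.H24
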