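import Mathlib
import Crest.Agent.H24.Values

set_option autoImplicit false

namespace Crest.Agent.H24

open MeasureTheory Set Filter Topology

theorem nu_real_Ici (c : ℝ) : nu.real {x | c ≤ x} = min 1 (Real.exp (-c)) := by
  have hms : MeasurableSet {x : ℝ | c ≤ x} := measurableSet_le measurable_const measurable_id
  have h1 : nu.real {x | c ≤ x} = ∫ x in Ioi (0:ℝ), Real.exp (-x) * ({x : ℝ | c ≤ x}.indicator 1 x) := by
    rw [← integral_nu, integral_indicator_one hms]
  rw [h1]
  rcases le_or_gt c 0 with hc | hc
  · rw [min_eq_left (by rw [Real.one_le_exp_iff]; linarith)]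
    have : ∫ x in Ioi (0:ℝ), Real.exp (-x) * ({x : ℝ | c ≤ x}.indicator 1 x) =
        ∫ x in Ioi (0:ℝ), Real.exp (-x) := by
      refine setIntegral_congr_fun measurableSet_Ioi fun x hx => ?_
      have hx' : 0 < x := hx
      have : c ≤ x := by linarith
      simp [indicator, this]
    rw [this, integral_exp_neg_Ioi_zero]
  · rw [min_eq_right (by rw [Real.exp_le_one_iff]; linarith)]
    have : ∫ x in Ioi (0:ℝ), Real.exp (-x) * ({x : ℝ | c ≤ x}.indicator 1 x) =
        ∫ x in Ioi c, Real.exp (-x) := by
      rw [← integral_Ici_eq_integral_Ioi (x := c), ← integral_indicator measurableSet_Ioi,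
        ← integral_indicator measurableSet_Ici]
      refine integral_congr_ae (ae_of_all _ fun x => ?_)
      by_cases hx : c ≤ x
      · have : 0 < x := by linarith
        simp [indicator, hx, this]
      · simp [indicator, hx]
    rw [this, integral_exp_neg_Ioi]

theorem integrable_id_nu : Integrable (fun x : ℝ => x) nu := by
  rw [integrable_nu_iff]
  have := integrableOn_kern
  refine this.congr (ae_of_all _ fun x => ?_)
  show x * Real.exp (-x) = Real.exp (-x) * x
  ring

theorem integral_id_nu : ∫ x, x ∂nu = 1 := by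
  rw [integral_nu, ← integral_kern]
  refine integral_congr_ae (ae_of_all _ fun x => ?_)
  show Real.exp (-x) * x = x * Real.exp (-x)
  ring

theorem Gc_int {α : ℝ} (hα : 0 < α) (s0 : ℝ) :
    Integrable (fun s => Gc α s0 s - (if 0 ≤ s then (1:ℝ) else 0)) ∧
      ∫ s, (Gc α s0 s - (if 0 ≤ s then (1:ℝ) else 0)) = - s0 := by
  have hX : Integrable (fun x : ℝ => s0 + (1 - x) / α) nu :=
    (integrable_const _).add (((integrable_const _).sub integrable_id_nu).div_const _)
  have hXm : Measurable (fun x : ℝ => s0 + (1 - x) / α) := by fun_prop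
  have h := cdf_integral hX hXm
  have hG : ∀ s : ℝ, nu.real {a | s0 + (1 - a) / α ≤ s} = Gc α s0 s := by
    intro s
    have : {a : ℝ | s0 + (1 - a) / α ≤ s} = {a | 1 - α * (s - s0) ≤ a} := by
      ext a
      simp only [mem_ofPred_eq]
      constructor
      · intro h
        have : (1 - a) / α ≤ s - s0 := by linarith
        rw [div_le_iff₀ hα] at this
        nlinarith
      · intro h
        have : (1 - a) / α ≤ s - s0 := by
          rw [div_le_iff₀ hα]
          nlinarith
        linarith
    rw [this, nu_real_Ici]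
    unfold Gc
    congr 2
    ring
  simp only [hG] at h
  refine ⟨h.1, ?_⟩
  rw [h.2]
  congr 1
  have e1 : ∫ a, (1 - a) ∂nu = 0 := by
    rw [integral_sub (f := fun _ => (1:ℝ)) (g := fun a => a) (integrable_const _) integrable_id_nu,
      integral_id_nu]
    simp
  have hi : Integrable (fun a : ℝ => (1 - a) / α) nu :=
    ((integrable_const (1:ℝ)).sub integrable_id_nu).div_const _
  rw [integral_add (f := fun _ => s0) (g := fun a => (1 - a) / α) (integrable_const _) hi,
    integral_div, e1]
  simp

/-- The kernel on the whole line. -/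
noncomputable def K (s : ℝ) : ℝ := if s < 4/3 then (4/3 - s) * Real.exp (-(4/3 - s)) else 0

theorem K_measurable : Measurable K := by
  unfold K
  exact Measurable.ite (measurableSet_lt measurable_id measurable_const) (by fun_prop) measurable_const

theorem K_nonneg (s : ℝ) : 0 ≤ K s := by
  unfold K
  split_ifs with h
  · exact mul_nonneg (by linarith) (Real.exp_pos _).le
  · exact le_rfl

theorem K_le_one (s : ℝ) : K s ≤ 1 := by
  unfold K
  split_ifs with h
  · have h1 := Real.add_one_le_exp (4/3 - s)
    have h2 : Real.exp (4/3 - s) * Real.exp (-(4/3 - s)) = 1 := by rw [← Real.exp_add]; simp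
    have h3 := Real.exp_pos (-(4/3 - s))
    nlinarith
  · exact zero_le_one

theorem integral_K_mul (f : ℝ → ℝ) :
    ∫ s, K s * f s = ∫ τ in Ioi (0:ℝ), τ * Real.exp (-τ) * f (4/3 - τ) := by
  rw [← integral_sub_left_eq_self _ volume (4/3), ← integral_indicator measurableSet_Ioi]
  refine integral_congr_ae (ae_of_all _ fun τ => ?_)
  by_cases hτ : 0 < τ
  · have : 4/3 - τ < 4/3 := by linarith
    simp [K, indicator, hτ]
  · have : ¬ (4/3 - τ < 4/3) := by intro h; exact hτ (by linarith)
    simp only [K, this, if_false, zero_mul]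
    simp [indicator, hτ]

/-- monotonicity of `τ e^{-τ}` on `[0,1]`. -/
theorem kern_mono {a b : ℝ} (ha : 0 ≤ a) (hab : a ≤ b) (hb : b ≤ 1) :
    a * Real.exp (-a) ≤ b * Real.exp (-b) := by
  rcases ha.eq_or_lt with h | h
  · rw [← h]; simp only [zero_mul]
    exact mul_nonneg (by linarith) (Real.exp_pos _).le
  have hb0 : 0 < b := by linarith
  have h1 : Real.log (a / b) ≤ a / b - 1 := Real.log_le_sub_one_of_pos (by positivity)
  have h2 : a / b - 1 ≤ a - b := by
    rw [div_sub_one hb0.ne', div_le_iff₀ hb0]
    nlinarith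
  have h3 : a / b ≤ Real.exp (a - b) := by
    rw [← Real.log_le_iff_le_exp (by positivity)]
    linarith
  have h4 : a ≤ b * Real.exp (a - b) := by
    rw [div_le_iff₀ hb0] at h3; linarith
  calc a * Real.exp (-a) ≤ (b * Real.exp (a - b)) * Real.exp (-a) :=
        mul_le_mul_of_nonneg_right h4 (Real.exp_pos _).le
    _ = b * Real.exp (-b) := by rw [mul_assoc, ← Real.exp_add]; congr 2; ring

/-- antitonicity of `τ e^{-τ}` on `[1,∞)`. -/
theorem kern_anti {a b : ℝ} (ha : 1 ≤ a) (hab : a ≤ b) :
    b * Real.exp (-b) ≤ a * Real.exp (-a) := by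
  have ha0 : 0 < a := by linarith
  have h1 : b / a ≤ b - a + 1 := by
    rw [div_le_iff₀ ha0]
    nlinarith
  have h2 : b / a ≤ Real.exp (b - a) := le_trans h1 (Real.add_one_le_exp _)
  have h4 : b ≤ a * Real.exp (b - a) := by
    rw [div_le_iff₀ ha0] at h2; linarith
  calc b * Real.exp (-b) ≤ (a * Real.exp (b - a)) * Real.exp (-b) :=
        mul_le_mul_of_nonneg_right h4 (Real.exp_pos _).le
    _ = a * Real.exp (-a) := by rw [mul_assoc, ← Real.exp_add]; congr 2; ring

/-- Final comparison step. -/
theorem compare {G : ℝ → ℝ} (hGm : Measurable G) (hG0 : ∀ s, 0 ≤ G s) (hG1 : ∀ s, G s ≤ 1)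
    (hint : Integrable (fun s => G s - (if 0 ≤ s then (1:ℝ) else 0)))
    (hzero : ∫ s, (G s - (if 0 ≤ s then (1:ℝ) else 0)) = 0)
    {α κ : ℝ} (hα : 0 < α) (hsign : ∀ s, 0 ≤ (K s - κ) * (G s - Gc α 0 s)) :
    4 / 9 * Real.exp (-(1/3)) ≤ ∫ τ in Ioi (0:ℝ), τ * Real.exp (-τ) * G (4/3 - τ) := by
  refine (value_ge hα).trans ?_
  obtain ⟨hi2, hz2⟩ := Gc_int hα 0
  have hD : Integrable (fun s => G s - Gc α 0 s) := by
    refine (hint.sub hi2).congr (ae_of_all _ fun s => ?_)
    simp
  have hD0 : ∫ s, (G s - Gc α 0 s) = 0 := by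
    have : ∫ s, (G s - Gc α 0 s) = (∫ s, (G s - (if 0 ≤ s then (1:ℝ) else 0))) -
        ∫ s, (Gc α 0 s - (if 0 ≤ s then (1:ℝ) else 0)) := by
      rw [← integral_sub hint hi2]
      refine integral_congr_ae (ae_of_all _ fun s => ?_)
      simp
    rw [this, hzero, hz2]; simp
  have hKD : Integrable (fun s => K s * (G s - Gc α 0 s)) := by
    refine hD.bdd_mul (c := 1) K_measurable.aestronglyMeasurable (ae_of_all _ fun s => ?_)
    rw [Real.norm_eq_abs, abs_of_nonneg (K_nonneg s)]
    exact K_le_one s
  have h1 : 0 ≤ ∫ s, (K s - κ) * (G s - Gc α 0 s) := integral_nonneg hsign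
  have h2 : ∫ s, (K s - κ) * (G s - Gc α 0 s) = ∫ s, K s * (G s - Gc α 0 s) := by
    have : ∀ s, (K s - κ) * (G s - Gc α 0 s) = K s * (G s - Gc α 0 s) - κ * (G s - Gc α 0 s) := by
      intro s; ring
    simp only [this]
    rw [integral_sub hKD (hD.const_mul κ), integral_const_mul, hD0]
    simp
  rw [h2, integral_K_mul] at h1
  have hiG := integrableOn_kern_mul hGm hG0 hG1
  have hiC := integrableOn_kern_mul (Gc_measurable α 0) (Gc_nonneg α 0) (Gc_le_one α 0)
  have h3 : ∫ τ in Ioi (0:ℝ), τ * Real.exp (-τ) * (G (4/3 - τ) - Gc α 0 (4/3 - τ)) =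
      (∫ τ in Ioi (0:ℝ), τ * Real.exp (-τ) * G (4/3 - τ)) -
      ∫ τ in Ioi (0:ℝ), τ * Real.exp (-τ) * Gc α 0 (4/3 - τ) := by
    rw [← integral_sub hiG hiC]
    refine integral_congr_ae (ae_of_all _ fun s => ?_)
    simp only
    ring
  rw [h3] at h1
  linarith

/-- The abstract lower bound. -/
theorem abstract_bound {G : ℝ → ℝ} (hmono : Monotone G) (hpos : ∀ s, 0 < G s) (hG1 : ∀ s, G s ≤ 1)
    (hlim : ∀ ε : ℝ, 0 < ε → ∃ s, 1 - ε < G s)
    (hP : PF2 G)
    (hint : Integrable (fun s => G s - (if 0 ≤ s then (1:ℝ) else 0)))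
    (hzero : ∫ s, (G s - (if 0 ≤ s then (1:ℝ) else 0)) = 0) :
    4 / 9 * Real.exp (-(1/3)) ≤ ∫ τ in Ioi (0:ℝ), τ * Real.exp (-τ) * G (4/3 - τ) := by
  have hGm : Measurable G := hmono.measurable
  have hG0 : ∀ s, 0 ≤ G s := fun s => (hpos s).le
  set A : ℝ → ℝ := fun s => Real.log (G s) + 1 with hA
  have hconc : ConcaveOn ℝ univ A := (hP.concaveOn_log hmono hpos).add_const 1
  have hAcont : Continuous A := by
    rw [← continuousOn_univ]
    exact hconc.continuousOn isOpen_univ
  have hAmono : Monotone A := fun x y hxy => by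
    have := Real.log_le_log (hpos x) (hmono hxy)
    simp only [hA]; linarith
  have hA1 : ∀ s, A s ≤ 1 := fun s => by
    have := Real.log_nonpos (hG0 s) (hG1 s)
    simp only [hA]; linarith
  have hGA : ∀ s, G s = Real.exp (A s - 1) := fun s => by
    simp only [hA, add_sub_cancel_right]
    rw [Real.exp_log (hpos s)]
  -- three point concavity
  have h3 : ∀ x y z : ℝ, x ≤ y → y ≤ z → (z - y) * A x + (y - x) * A z ≤ (z - x) * A y := by
    intro x y z hxy hyz
    rcases (le_trans hxy hyz).eq_or_lt with h | h
    · have h1 : y = x := by linarith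
      have h2 : z = x := by linarith
      rw [h1, h2]; simp
    · have hzx : 0 < z - x := by linarith
      have := hconc.2 (mem_univ x) (mem_univ z) (show 0 ≤ (z - y) / (z - x) by
        apply div_nonneg <;> linarith) (show 0 ≤ (y - x) / (z - x) by
        apply div_nonneg <;> linarith) (by field_simp; ring)
      simp only [smul_eq_mul] at this
      have e : (z - y) / (z - x) * x + (y - x) / (z - x) * z = y := by
        field_simp; ring
      rw [e] at this
      have h4 : (z - x) * ((z - y) / (z - x) * A x + (y - x) / (z - x) * A z) ≤ (z - x) * A y :=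
        mul_le_mul_of_nonneg_left this hzx.le
      have h5 : (z - x) * ((z - y) / (z - x) * A x + (y - x) / (z - x) * A z) =
          (z - y) * A x + (y - x) * A z := by field_simp
      linarith
  -- A positive on positive reals
  have hApos : ∀ s : ℝ, 0 < s → 0 < A s := by
    intro s1 hs1
    by_contra hcon
    push Not at hcon
    set s0 : ℝ := s1 / 2 with hs0
    have hs0' : 0 < s0 := by rw [hs0]; linarith
    have h01 : s0 < s1 := by rw [hs0]; linarith
    set α : ℝ := (A s1 - A s0) / (s1 - s0) with hα
    have hα0 : 0 ≤ α := div_nonneg (by linarith [hAmono h01.le]) (by linarith)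
    have hαeq : α * (s1 - s0) = A s1 - A s0 := by
      rw [hα]; exact div_mul_cancel₀ _ (sub_ne_zero.2 h01.ne')
    have hup : ∀ s, A s ≤ α * (s - s0) := by
      intro s
      rcases le_or_gt s s0 with h | h
      · have := h3 s s0 s1 h h01.le
        -- (s1 - s0) A s + (s0 - s) A s1 ≤ (s1 - s) A s0
        have hA0 : A s0 ≤ 0 := le_trans (hAmono h01.le) hcon
        have h5 : (s1 - s0) * A s ≤ (s1 - s0) * (α * (s - s0)) := by
          have e : (s1 - s0) * (α * (s - s0)) = (A s1 - A s0) * (s - s0) := by rw [← hαeq]; ring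
          rw [e]
          nlinarith
        exact le_of_mul_le_mul_left h5 (by linarith)
      · rcases le_or_gt s s1 with h' | h'
        · calc A s ≤ A s1 := hAmono h'
            _ ≤ 0 := hcon
            _ ≤ α * (s - s0) := mul_nonneg hα0 (by linarith)
        · have := h3 s0 s1 s h01.le h'.le
          have h5 : (s1 - s0) * A s ≤ (s1 - s0) * (α * (s - s0)) := by
            have e : (s1 - s0) * (α * (s - s0)) = (A s1 - A s0) * (s - s0) := by rw [← hαeq]; ring
            rw [e]
            have hA0 : A s0 ≤ 0 := le_trans (hAmono h01.le) hcon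
            nlinarith
          exact le_of_mul_le_mul_left h5 (by linarith)
    rcases hα0.eq_or_lt with hα1 | hα1
    · -- bounded by e^{-1}
      obtain ⟨s, hs⟩ := hlim (1 - Real.exp (-1)) (by
        have : Real.exp (-1) < 1 := by rw [Real.exp_lt_one_iff]; norm_num
        linarith)
      have h4 := hup s
      rw [← hα1, zero_mul] at h4
      have h5 : G s ≤ Real.exp (-1) := by
        rw [hGA s]; exact Real.exp_le_exp.2 (by linarith)
      linarith
    · obtain ⟨hi2, hz2⟩ := Gc_int hα1 s0
      have hle : ∫ s, (G s - (if 0 ≤ s then (1:ℝ) else 0)) ≤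
          ∫ s, (Gc α s0 s - (if 0 ≤ s then (1:ℝ) else 0)) := by
        refine integral_mono hint hi2 fun s => ?_
        have : G s ≤ Gc α s0 s := by
          unfold Gc
          refine le_min (hG1 s) ?_
          rw [hGA s]
          exact Real.exp_le_exp.2 (by linarith [hup s])
        simp only
        linarith
      rw [hzero, hz2] at hle
      linarith
  have hA0 : 0 ≤ A 0 := by
    have h1 : Tendsto A (𝓝[>] 0) (𝓝 (A 0)) := hAcont.continuousAt.tendsto.mono_left nhdsWithin_le_nhds
    refine ge_of_tendsto h1 ?_
    filter_upwards [self_mem_nhdsWithin] with s hs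
    exact (hApos s hs).le
  -- parametrization
  set Q : ℝ → ℝ := fun w => Real.log w / (w - 1) with hQ
  have hQpos : ∀ w : ℝ, 1 < w → 0 < Q w := fun w hw => div_pos (Real.log_pos hw) (by linarith)
  have hQ1 : ∀ w : ℝ, 1 < w → Q w ≤ 1 := fun w hw => by
    simp only [hQ]
    rw [div_le_one (by linarith)]
    exact Real.log_le_sub_one_of_pos (by linarith)
  have hwQ1 : ∀ w : ℝ, 1 < w → 1 ≤ w * Q w := fun w hw => by
    have hw0 : 0 < w := by linarith
    have h1 : Real.log w⁻¹ ≤ w⁻¹ - 1 := Real.log_le_sub_one_of_pos (by positivity)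
    rw [Real.log_inv] at h1
    simp only [hQ]
    rw [mul_div_assoc', one_le_div (by linarith)]
    have h2 : w * (1 - w⁻¹) ≤ w * Real.log w := mul_le_mul_of_nonneg_left (by linarith) hw0.le
    have h3 : w * (1 - w⁻¹) = w - 1 := by field_simp
    linarith
  have hkey : ∀ w : ℝ, 1 < w → (w * Q w) * Real.exp (-(w * Q w)) = Q w * Real.exp (-(Q w)) := by
    intro w hw
    have hw0 : 0 < w := by linarith
    have h1 : w * Q w = Q w + Real.log w := by
      simp only [hQ]
      have : w - 1 ≠ 0 := by linarith
      field_simp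
      ring
    have h2 : Real.exp (-(w * Q w)) = Real.exp (-(Q w)) * w⁻¹ := by
      rw [h1, neg_add, Real.exp_add, Real.exp_neg (Real.log w), Real.exp_log hw0]
    rw [h2]
    field_simp
  set p : ℝ → ℝ := fun w => 4/3 - w * Q w with hp
  set q : ℝ → ℝ := fun w => 4/3 - Q w with hq
  have hqpos : ∀ w : ℝ, 1 < w → 0 < q w := fun w hw => by
    have := hQ1 w hw
    simp only [hq]; linarith
  have hpq : ∀ w : ℝ, 1 < w → p w < q w := fun w hw => by
    have := hQpos w hw
    simp only [hp, hq]
    nlinarith
  -- values of K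
  have hKin : ∀ w : ℝ, 1 < w → ∀ s, p w ≤ s → s ≤ q w → Q w * Real.exp (-(Q w)) ≤ K s := by
    intro w hw s h1 h2
    have hQ0 := hQpos w hw
    have hs : s < 4/3 := by simp only [hq] at h2; linarith
    simp only [K, hs, if_true]
    simp only [hp] at h1
    simp only [hq] at h2
    rcases le_total (4/3 - s) 1 with h | h
    · exact kern_mono hQ0.le (by linarith) h
    · rw [← hkey w hw]
      exact kern_anti h (by linarith)
  have hKleft : ∀ w : ℝ, 1 < w → ∀ s, s ≤ p w → K s ≤ Q w * Real.exp (-(Q w)) := by
    intro w hw s h1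
    have hs : s < 4/3 := by
      simp only [hp] at h1
      have := hwQ1 w hw
      linarith
    simp only [K, hs, if_true]
    simp only [hp] at h1
    rw [← hkey w hw]
    exact kern_anti (hwQ1 w hw) (by linarith)
  have hKright : ∀ w : ℝ, 1 < w → ∀ s, q w ≤ s → K s ≤ Q w * Real.exp (-(Q w)) := by
    intro w hw s h1
    have hQ0 := hQpos w hw
    unfold K
    split_ifs with hs
    · simp only [hq] at h1
      exact kern_mono (by linarith) (by linarith) (hQ1 w hw)
    · positivity
  have hcQ : ContinuousOn Q (Ioi 1) := by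
    simp only [hQ]
    apply ContinuousOn.div
    · exact Real.continuousOn_log.mono (fun x hx => by
        have : (1:ℝ) < x := hx
        simp; linarith)
    · fun_prop
    · intro x hx
      have : (1:ℝ) < x := hx
      linarith
  set Φ : ℝ → ℝ := fun w => A (q w) * p w - A (p w) * q w with hΦ
  have hΦc : ContinuousOn Φ (Ioi 1) := by
    have hqc : ContinuousOn q (Ioi 1) := continuousOn_const.sub hcQ
    have hpc : ContinuousOn p (Ioi 1) := continuousOn_const.sub (continuousOn_id.mul hcQ)
    exact ((hAcont.comp_continuousOn hqc).mul hpc).sub ((hAcont.comp_continuousOn hpc).mul hqc)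
  by_cases hcase : ∃ w2 : ℝ, 3/2 ≤ w2 ∧ 0 ≤ Φ w2
  · obtain ⟨w2, hw2, hΦ2⟩ := hcase
    have hstart : Φ (3/2) ≤ 0 := by
      have hp0 : 0 ≤ p (3/2) := by
        simp only [hp, hQ]
        have h1 : Real.log (3/2) ≤ 4/9 := by
          rw [Real.log_le_iff_le_exp (by norm_num)]
          have := exp_poly (4/9) (by norm_num)
          norm_num at this ⊢
          linarith
        norm_num
        linarith
      have hq0 := hqpos (3/2) (by norm_num)
      have hpq0 := hpq (3/2) (by norm_num)
      have := h3 0 (p (3/2)) (q (3/2)) hp0 hpq0.le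
      simp only [hΦ]
      nlinarith
    obtain ⟨w, hw, hw0⟩ : ∃ w ∈ Icc (3/2) w2, Φ w = 0 := by
      have hc : ContinuousOn Φ (Icc (3/2) w2) := hΦc.mono (fun x hx => by
        have : (3/2:ℝ) ≤ x := hx.1
        simp only [mem_Ioi]; linarith)
      have := intermediate_value_Icc hw2 hc
      exact this ⟨hstart, hΦ2⟩
    have hw1 : 1 < w := by have := hw.1; linarith
    have hq0 := hqpos w hw1
    have hpq0 := hpq w hw1
    set α : ℝ := A (q w) / q w with hα
    have hα0 : 0 < α := div_pos (hApos _ hq0) hq0
    have hαq : A (q w) = α * q w := by rw [hα]; field_simp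
    have hαp : A (p w) = α * p w := by
      have h1 : A (q w) * p w = A (p w) * q w := by simp only [hΦ] at hw0; linarith
      rw [hαq] at h1
      have h2 : A (p w) * q w = (α * p w) * q w := by linarith
      exact mul_right_cancel₀ hq0.ne' h2
    refine compare hGm hG0 hG1 hint hzero (α := α) (κ := Q w * Real.exp (-(Q w))) hα0 fun s => ?_
    rcases le_or_gt s (p w) with hsp | hsp
    · -- left
      have hAs : A s ≤ α * s := by
        have := h3 s (p w) (q w) hsp hpq0.le
        rw [hαq, hαp] at this
        have h5 : (q w - p w) * A s ≤ (q w - p w) * (α * s) := by nlinarith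
        exact le_of_mul_le_mul_left h5 (by linarith)
      have hGs : G s ≤ Gc α 0 s := by
        unfold Gc
        refine le_min (hG1 s) ?_
        rw [hGA s]
        exact Real.exp_le_exp.2 (by linarith)
      exact mul_nonneg_of_nonpos_of_nonpos (by linarith [hKleft w hw1 s hsp]) (by linarith)
    · rcases le_or_gt s (q w) with hsq | hsq
      · have hAs : α * s ≤ A s := by
          have := h3 (p w) s (q w) hsp.le hsq
          rw [hαq, hαp] at this
          have h5 : (q w - p w) * (α * s) ≤ (q w - p w) * A s := by nlinarith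
          exact le_of_mul_le_mul_left h5 (by linarith)
        have hGs : Gc α 0 s ≤ G s := by
          unfold Gc
          refine (min_le_right _ _).trans ?_
          rw [hGA s]
          exact Real.exp_le_exp.2 (by linarith)
        exact mul_nonneg (by linarith [hKin w hw1 s hsp.le hsq]) (by linarith)
      · have hAs : A s ≤ α * s := by
          have := h3 (p w) (q w) s hpq0.le hsq.le
          rw [hαq, hαp] at this
          have h5 : (q w - p w) * A s ≤ (q w - p w) * (α * s) := by nlinarith
          exact le_of_mul_le_mul_left h5 (by linarith)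
        have hGs : G s ≤ Gc α 0 s := by
          unfold Gc
          refine le_min (hG1 s) ?_
          rw [hGA s]
          exact Real.exp_le_exp.2 (by linarith)
        exact mul_nonneg_of_nonpos_of_nonpos (by linarith [hKright w hw1 s hsq.le]) (by linarith)
  · push Not at hcase
    -- heavy left tail
    set α : ℝ := A (4/3) / (4/3) with hα
    have hα0 : 0 < α := div_pos (hApos _ (by norm_num)) (by norm_num)
    have hα43 : A (4/3) = α * (4/3) := by rw [hα]; field_simp
    have htQ : Tendsto Q atTop (𝓝 0) := by
      have := Real.tendsto_pow_log_div_mul_add_atTop 1 (-1) 1 one_ne_zero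
      refine this.congr fun w => ?_
      simp only [hQ, pow_one, one_mul]
      rfl
    have htq : Tendsto q atTop (𝓝 (4/3)) := by
      have := tendsto_const_nhds (x := (4/3:ℝ)) |>.sub htQ
      rw [sub_zero] at this
      exact this
    have hlow : ∀ s, s ≤ 4/3 → α * s ≤ A s := by
      intro s hs
      rcases le_or_gt 0 s with h0 | h0
      · have := h3 0 s (4/3) h0 hs
        rw [hα43] at this
        have h43 : 0 ≤ (4/3 - s) * A 0 := mul_nonneg (by linarith) hA0
        nlinarith
      · -- limit
        have hlim2 : Tendsto (fun w => A (q w) / q w * s) atTop (𝓝 (α * s)) := by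
          have h1 : Tendsto (fun w => A (q w)) atTop (𝓝 (A (4/3))) :=
            (hAcont.tendsto (4/3)).comp htq
          have h2 := h1.div htq (by norm_num)
          exact h2.mul_const s
        have hev : ∀ᶠ w in atTop, A (q w) / q w * s ≤ A s := by
          have hlog : Tendsto Real.log atTop atTop := Real.tendsto_log_atTop
          filter_upwards [eventually_ge_atTop (3/2:ℝ), hlog.eventually_ge_atTop (4/3 - s)] with w hw hlw
          have hw1 : 1 < w := by linarith
          have hΦw := hcase w hw
          have hq0 := hqpos w hw1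
          have hps : p w ≤ s := by
            simp only [hp]
            have h1 : w * Q w = Q w + Real.log w := by
              simp only [hQ]
              have : w - 1 ≠ 0 := by linarith
              field_simp
              ring
            have := hQpos w hw1
            linarith
          have hpneg : p w < 0 := by linarith
          -- A s ≥ (s/p) A p ≥ s * A q / q
          have h4 := h3 (p w) s 0 hps h0.le
          -- (0 - s) A p + (s - p) A 0 ≤ (0 - p) A s
          have h5 : 0 ≤ (s - p w) * A 0 := mul_nonneg (by linarith) hA0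
          have h6 : (-s) * A (p w) ≤ (-(p w)) * A s := by linarith
          have h7 : A (q w) / q w * p w ≤ A (p w) := by
            simp only [hΦ] at hΦw
            rw [div_mul_eq_mul_div, div_le_iff₀ hq0]
            linarith
          have h8 : (-s) * (A (q w) / q w * p w) ≤ (-(p w)) * A s :=
            le_trans (mul_le_mul_of_nonneg_left h7 (by linarith)) h6
          have h9 : (-(p w)) * (A (q w) / q w * s) ≤ (-(p w)) * A s := by
            have e : (-(p w)) * (A (q w) / q w * s) = (-s) * (A (q w) / q w * p w) := by ring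
            rw [e]; exact h8
          exact le_of_mul_le_mul_left h9 (by linarith)
        exact le_of_tendsto hlim2 hev
    refine compare hGm hG0 hG1 hint hzero (α := α) (κ := 0) hα0 fun s => ?_
    rw [sub_zero]
    by_cases hs : s < 4/3
    · have hGs : Gc α 0 s ≤ G s := by
        unfold Gc
        refine (min_le_right _ _).trans ?_
        rw [hGA s]
        exact Real.exp_le_exp.2 (by linarith [hlow s hs.le])
      exact mul_nonneg (K_nonneg s) (by linarith)
    · simp [K, hs]

end Crest.Agent.H24
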