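import Mathlib
import Crest.Prelude.Def_TruncExpWeight
import Crest.Agent.H24.Crossing

set_option autoImplicit false

namespace Crest.Agent.H24

open MeasureTheory Set Filter Topology Crest.AlgGeometry ProbabilityTheory

theorem g_eq_one_sub (y : ℝ) :
    truncExpWeight y = 1 - ∫ τ in Ioi (0:ℝ), τ * Real.exp (-τ) * (if τ ≤ y then (1:ℝ) else 0) := by
  unfold truncExpWeight
  split_ifs with h
  · have : ∫ τ in Ioi (0:ℝ), τ * Real.exp (-τ) * (if τ ≤ y then (1:ℝ) else 0) = 0 := by
      have h1 : ∫ τ in Ioi (0:ℝ), τ * Real.exp (-τ) * (if τ ≤ y then (1:ℝ) else 0) =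
          ∫ τ in Ioi (0:ℝ), (0:ℝ) := by
        refine setIntegral_congr_fun measurableSet_Ioi fun τ hτ => ?_
        have hτ' : 0 < τ := hτ
        have : ¬ τ ≤ y := by linarith
        simp [this]
      rw [h1]; simp
    rw [this]; ring
  · push Not at h
    have h1 : ∫ τ in Ioi (0:ℝ), τ * Real.exp (-τ) * (if τ ≤ y then (1:ℝ) else 0) =
        ∫ τ in Ioc (0:ℝ) y, τ * Real.exp (-τ) := by
      rw [← integral_indicator measurableSet_Ioi, ← integral_indicator measurableSet_Ioc]
      refine integral_congr_ae (ae_of_all _ fun τ => ?_)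
      by_cases h0 : 0 < τ
      · by_cases h1 : τ ≤ y
        · simp [indicator, h0, h1]
        · simp [indicator, h1]
      · simp [indicator, h0]
    rw [h1, ← intervalIntegral.integral_of_le h.le, integral_mul_exp_neg]
    ring

theorem g_nonneg (y : ℝ) : 0 ≤ truncExpWeight y := by
  unfold truncExpWeight
  split_ifs with h
  · exact zero_le_one
  · push Not at h
    exact mul_nonneg (by linarith) (Real.exp_pos _).le

theorem phi_le_one {x : ℝ} (_hx : 0 ≤ x) : (1 + x) * Real.exp (-x) ≤ 1 := by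
  have h1 := Real.add_one_le_exp x
  have h2 : Real.exp x * Real.exp (-x) = 1 := by rw [← Real.exp_add]; simp
  have h3 := Real.exp_pos (-x)
  nlinarith

theorem g_le_one (y : ℝ) : truncExpWeight y ≤ 1 := by
  unfold truncExpWeight
  split_ifs with h
  · exact le_rfl
  · push Not at h
    exact phi_le_one h.le

theorem phi_anti {x d : ℝ} (hx : 0 ≤ x) (hd : 0 ≤ d) :
    (1 + (x + d)) * Real.exp (-(x + d)) ≤ (1 + x) * Real.exp (-x) := by
  have h1 := Real.add_one_le_exp d
  have h2 : Real.exp (-(x+d)) * Real.exp d = Real.exp (-x) := by rw [← Real.exp_add]; congr 1; ring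
  have h3 := Real.exp_pos (-(x+d))
  rw [← h2]
  have h4 : 1 + (x + d) ≤ (1 + x) * Real.exp d := by nlinarith
  calc (1 + (x + d)) * Real.exp (-(x + d)) ≤ ((1 + x) * Real.exp d) * Real.exp (-(x + d)) :=
        mul_le_mul_of_nonneg_right h4 h3.le
    _ = _ := by ring

theorem phi_lip {x d : ℝ} (hx : 0 ≤ x) (hd : 0 ≤ d) :
    (1 + x) * Real.exp (-x) - (1 + (x + d)) * Real.exp (-(x + d)) ≤ d := by
  have h1 := phi_le_one hx
  have h2 : Real.exp (-(x+d)) = Real.exp (-x) * Real.exp (-d) := by rw [← Real.exp_add]; congr 1; ring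
  rw [h2]
  have h3 := Real.add_one_le_exp (-d)
  have h4 := Real.exp_pos (-x)
  have h5 := Real.exp_pos (-d)
  have h6 : 0 ≤ d * (Real.exp (-x) * Real.exp (-d)) := by positivity
  have h7 : (1 + x) * Real.exp (-x) * (1 - Real.exp (-d)) ≤ 1 * d := by
    apply mul_le_mul h1 (by linarith) _ zero_le_one
    have : Real.exp (-d) ≤ 1 := by rw [Real.exp_le_one_iff]; linarith
    linarith
  nlinarith

theorem g_lip (y y' : ℝ) : truncExpWeight y - |y' - y| ≤ truncExpWeight y' := by
  unfold truncExpWeight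
  rcases le_total y' y with h | h
  · rw [abs_of_nonpos (by linarith)]
    split_ifs with h1 h2 h2
    · linarith
    · linarith
    · push Not at h1
      have := phi_le_one h1.le
      linarith
    · push Not at h1 h2
      have := phi_anti (x := y') (d := y - y') h2.le (by linarith)
      have e : y' + (y - y') = y := by ring
      rw [e] at this
      linarith
  · rw [abs_of_nonneg (by linarith)]
    split_ifs with h1 h2 h2
    · linarith
    · push Not at h2
      have := phi_lip (x := 0) (d := y') le_rfl h2.le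
      simp only [zero_add, neg_zero, Real.exp_zero, mul_one, add_zero] at this
      linarith
    · linarith
    · push Not at h1 h2
      have := phi_lip (x := y) (d := y' - y) h1.le (by linarith)
      have e : y + (y' - y) = y' := by ring
      rw [e] at this
      linarith

theorem g_measurable : Measurable truncExpWeight := by
  unfold truncExpWeight
  exact Measurable.ite (measurableSet_le measurable_id measurable_const) measurable_const (by fun_prop)

/-- Expectation identity. -/
theorem expectation_eq (N : ℕ) (a : Fin N → ℝ) :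
    ∫ x, truncExpWeight (4 / 3 + ∑ i, a i * x i) ∂(P N) =
      1 - ∫ τ in Ioi (0:ℝ), τ * Real.exp (-τ) * cdfN N (fun i => -a i) (4/3 - τ) := by
  set F : (Fin N → ℝ) → ℝ → ℝ := fun x τ =>
    τ * Real.exp (-τ) * (if τ ≤ 4/3 + ∑ i, a i * x i then (1:ℝ) else 0) with hF
  have hk : Integrable (fun τ : ℝ => τ * Real.exp (-τ)) (volume.restrict (Ioi 0)) := integrableOn_kern
  have hFm : Measurable (Function.uncurry F) := by
    simp only [hF]
    apply Measurable.mul
    · fun_prop
    · apply Measurable.ite _ measurable_const measurable_const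
      apply measurableSet_le
      · fun_prop
      · fun_prop
  have hFint : Integrable (Function.uncurry F) ((P N).prod (volume.restrict (Ioi 0))) := by
    have h1 : Integrable (fun z : (Fin N → ℝ) × ℝ => (1:ℝ) * (z.2 * Real.exp (-z.2)))
        ((P N).prod (volume.restrict (Ioi 0))) := (integrable_const (1:ℝ)).mul_prod hk
    refine h1.norm.mono' hFm.aestronglyMeasurable (ae_of_all _ fun z => ?_)
    simp only [Function.uncurry, hF, one_mul]
    rw [norm_mul]
    apply mul_le_of_le_one_right (norm_nonneg _)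
    split_ifs <;> simp
  have hint1 : Integrable (fun x => ∫ τ in Ioi (0:ℝ), F x τ) (P N) := hFint.integral_prod_left
  have h1 : ∫ x, truncExpWeight (4 / 3 + ∑ i, a i * x i) ∂(P N) =
      1 - ∫ x, (∫ τ in Ioi (0:ℝ), F x τ) ∂(P N) := by
    have : ∀ x : Fin N → ℝ, truncExpWeight (4 / 3 + ∑ i, a i * x i) = 1 - ∫ τ in Ioi (0:ℝ), F x τ :=
      fun x => g_eq_one_sub _
    simp only [this]
    rw [integral_sub (integrable_const _) hint1]
    simp
  rw [h1, integral_integral_swap hFint]
  congr 1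
  refine setIntegral_congr_fun measurableSet_Ioi fun τ _ => ?_
  simp only [hF]
  rw [integral_const_mul]
  congr 1
  unfold cdfN
  have hset : {x : Fin N → ℝ | ∑ i, -a i * x i ≤ 4/3 - τ} = {x | τ ≤ 4/3 + ∑ i, a i * x i} := by
    ext x
    simp only [mem_ofPred_eq, neg_mul, Finset.sum_neg_distrib]
    constructor <;> intro h <;> linarith
  rw [hset]
  have hms : MeasurableSet {x : Fin N → ℝ | τ ≤ 4/3 + ∑ i, a i * x i} := by
    apply measurableSet_le
    · fun_prop
    · fun_prop
  rw [← integral_indicator_one hms]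
  refine integral_congr_ae (ae_of_all _ fun x => ?_)
  simp [indicator]

theorem nu_Ioo_pos {c d : ℝ} (hc : 0 ≤ c) (hcd : c < d) : 0 < nu (Ioo c d) := by
  have hac : volume.restrict (Ioi (0:ℝ)) ≪ nu := by
    unfold nu
    refine withDensity_absolutelyContinuous' ?_ (ae_of_all _ fun x => ?_)
    · exact (Real.measurable_exp.comp measurable_neg).ennreal_ofReal.aemeasurable
    · simp [Real.exp_pos]
  by_contra hcon
  have h0 : nu (Ioo c d) = 0 := by simpa using hcon
  have h1 := hac h0
  rw [Measure.restrict_apply measurableSet_Ioo] at h1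
  have h2 : Ioo c d ∩ Ioi 0 = Ioo c d := by
    ext x
    simp only [mem_inter_iff, mem_Ioo, mem_Ioi]
    constructor
    · rintro ⟨h, _⟩; exact h
    · intro h; exact ⟨h, by linarith [h.1]⟩
  rw [h2, Real.volume_Ioo] at h1
  simp at h1
  linarith

theorem cdfN_pos {N : ℕ} (b : Fin N → ℝ) (j : Fin N) (hj : b j < 0) (s : ℝ) : 0 < cdfN N b s := by
  classical
  set B : ℝ := ∑ i, |b i| with hB
  set R : ℝ := max 0 ((B - s) / (-(b j))) with hR
  set I : Fin N → Set ℝ := fun i => if i = j then Ioo R (R + 1) else Ioo 0 1 with hI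
  have hIpos : ∀ i, 0 < nu (I i) := by
    intro i
    simp only [hI]
    split_ifs
    · exact nu_Ioo_pos (le_max_left _ _) (by linarith)
    · exact nu_Ioo_pos le_rfl one_pos
  have hpos : 0 < (P N) (Set.pi univ I) := by
    unfold P
    rw [Measure.pi_pi, pos_iff_ne_zero]
    exact Finset.prod_ne_zero_iff.2 fun i _ => (hIpos i).ne'
  have hsub : Set.pi univ I ⊆ {x | ∑ i, b i * x i ≤ s} := by
    intro x hx
    simp only [mem_ofPred_eq]
    have h1 : ∀ i, b i * x i ≤ (if i = j then b j * R else 0) + |b i| := by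
      intro i
      have hxi := hx i (mem_univ i)
      simp only [hI] at hxi
      by_cases hij : i = j
      · subst hij
        simp only [if_true] at hxi ⊢
        have : b i * x i ≤ b i * R := mul_le_mul_of_nonpos_left hxi.1.le hj.le
        linarith [abs_nonneg (b i)]
      · simp only [hij, if_false] at hxi ⊢
        have h2 : b i * x i ≤ |b i| * 1 := by
          calc b i * x i ≤ |b i * x i| := le_abs_self _
            _ = |b i| * |x i| := abs_mul _ _
            _ ≤ |b i| * 1 := by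
              apply mul_le_mul_of_nonneg_left _ (abs_nonneg _)
              rw [abs_of_pos hxi.1]; exact hxi.2.le
        linarith
    have h2 : ∑ i, b i * x i ≤ b j * R + B := by
      calc ∑ i, b i * x i ≤ ∑ i, ((if i = j then b j * R else 0) + |b i|) :=
            Finset.sum_le_sum fun i _ => h1 i
        _ = b j * R + B := by
          rw [Finset.sum_add_distrib]
          simp [hB]
    have h3 : (B - s) ≤ (-(b j)) * R := by
      have : (B - s) / (-(b j)) ≤ R := le_max_right _ _
      rw [div_le_iff₀ (by linarith)] at this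
      linarith
    linarith
  have h1 : (P N).real (Set.pi univ I) ≤ cdfN N b s := measureReal_mono hsub
  have h2 : 0 < (P N).real (Set.pi univ I) := by
    rw [measureReal_def]
    exact ENNReal.toReal_pos hpos.ne' (measure_ne_top _ _)
  linarith

theorem cdfN_lim {N : ℕ} (b : Fin N → ℝ) (ε : ℝ) (hε : 0 < ε) : ∃ s, 1 - ε < cdfN N b s := by
  have h1 : Tendsto (fun n : ℕ => (P N) {x | ∑ i, b i * x i ≤ (n:ℝ)}) atTop
      (𝓝 ((P N) (⋃ n : ℕ, {x | ∑ i, b i * x i ≤ (n:ℝ)}))) := by
    apply tendsto_measure_iUnion_atTop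
    intro m n hmn x hx
    have hx' : ∑ i, b i * x i ≤ (m:ℝ) := hx
    have hmn' : (m:ℝ) ≤ n := by exact_mod_cast hmn
    show ∑ i, b i * x i ≤ (n:ℝ)
    exact hx'.trans hmn'
  have h2 : (⋃ n : ℕ, {x : Fin N → ℝ | ∑ i, b i * x i ≤ (n:ℝ)}) = univ := by
    ext x
    simp only [mem_iUnion, mem_ofPred_eq, mem_univ, iff_true]
    exact exists_nat_ge _
  rw [h2, measure_univ] at h1
  have h3 : Tendsto (fun n : ℕ => cdfN N b n) atTop (𝓝 1) := by
    have := (ENNReal.tendsto_toReal ENNReal.one_ne_top).comp h1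
    rw [ENNReal.toReal_one] at this
    exact this
  obtain ⟨n, hn⟩ := (h3.eventually (lt_mem_nhds (show 1 - ε < 1 by linarith))).exists
  exact ⟨n, hn⟩

theorem integrable_eval_P {N : ℕ} (i : Fin N) : Integrable (fun x : Fin N → ℝ => x i) (P N) := by
  unfold P
  exact integrable_comp_eval (μ := fun _ : Fin N => nu) (f := fun x : ℝ => x) integrable_id_nu

theorem integral_eval_P {N : ℕ} (i : Fin N) : ∫ x, x i ∂(P N) = 1 := by
  unfold P
  rw [integral_comp_eval (μ := fun _ : Fin N => nu) (f := fun x : ℝ => x)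
    integrable_id_nu.aestronglyMeasurable]
  exact integral_id_nu

theorem integral_lin {N : ℕ} (b : Fin N → ℝ) :
    Integrable (fun x : Fin N → ℝ => ∑ i, b i * x i) (P N) ∧
      ∫ x, ∑ i, b i * x i ∂(P N) = ∑ i, b i := by
  have hi : ∀ i ∈ (Finset.univ : Finset (Fin N)), Integrable (fun x : Fin N → ℝ => b i * x i) (P N) :=
    fun i _ => (integrable_eval_P i).const_mul _
  refine ⟨integrable_finsetSum _ hi, ?_⟩
  rw [integral_finsetSum _ hi]
  refine Finset.sum_congr rfl fun i _ => ?_
  rw [integral_const_mul, integral_eval_P, mul_one]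

theorem upper {N : ℕ} (a : Fin N → ℝ) (ha : ∑ i, a i = 0) :
    ∫ x, truncExpWeight (4 / 3 + ∑ i, a i * x i) ∂(P N) ≤ 1 - 4 / 9 * Real.exp (-(1/3)) := by
  by_cases hne : ∃ j, 0 < a j
  · obtain ⟨j, hj⟩ := hne
    rw [expectation_eq]
    set b : Fin N → ℝ := fun i => -a i with hb
    have hbsum : ∑ i, b i = 0 := by simp [hb, ha]
    obtain ⟨hX, hXi⟩ := integral_lin b
    obtain ⟨h1, h2⟩ := cdf_integral hX (by fun_prop)
    rw [hXi, hbsum, neg_zero] at h2
    have := abstract_bound (G := cdfN N b) (cdfN_mono N b)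
      (cdfN_pos b j (by simp only [hb]; linarith)) (cdfN_le_one N b) (cdfN_lim b) (cdfN_PF2 N b) h1 h2
    linarith
  · push Not at hne
    have h0 : ∀ i, a i = 0 := by
      intro i
      have h1 : ∀ i ∈ (Finset.univ : Finset (Fin N)), a i = 0 :=
        (Finset.sum_eq_zero_iff_of_nonpos (fun i _ => hne i)).1 ha
      exact h1 i (Finset.mem_univ i)
    have : ∫ x, truncExpWeight (4 / 3 + ∑ i, a i * x i) ∂(P N) = 7/3 * Real.exp (-(4/3)) := by
      simp only [h0, zero_mul, Finset.sum_const_zero, add_zero]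
      simp only [integral_const, probReal_univ, one_smul]
      unfold truncExpWeight
      norm_num
    rw [this]
    have he : (2.7:ℝ) ≤ Real.exp 1 := by have := Real.exp_one_gt_d9; linarith
    have h13 := exp_third
    have e1 : Real.exp (4/3) = Real.exp 1 * Real.exp (1/3) := by rw [← Real.exp_add]; norm_num
    have e2 : Real.exp (-(1/3)) * Real.exp (4/3) = Real.exp 1 := by rw [← Real.exp_add]; norm_num
    have e3 : Real.exp (-(4/3)) * Real.exp (4/3) = 1 := by rw [← Real.exp_add]; norm_num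
    have h43 := Real.exp_pos (4/3)
    have hgoal : 7/3 * Real.exp (-(4/3)) * Real.exp (4/3) ≤ (1 - 4 / 9 * Real.exp (-(1/3))) * Real.exp (4/3) := by
      have l1 : 7/3 * Real.exp (-(4/3)) * Real.exp (4/3) = 7/3 := by
        rw [mul_assoc, e3, mul_one]
      have l2 : (1 - 4 / 9 * Real.exp (-(1/3))) * Real.exp (4/3) = Real.exp 1 * Real.exp (1/3) - 4/9 * Real.exp 1 := by
        rw [sub_mul, one_mul, mul_assoc, e2, e1]
      rw [l1, l2]
      nlinarith
    exact le_of_mul_le_mul_right hgoal h43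

theorem integrable_sq_nu : Integrable (fun x : ℝ => x ^ 2) nu := by
  rw [integrable_nu_iff]
  have := Real.GammaIntegral_convergent (s := 3) (by norm_num)
  refine this.congr_fun (fun x hx => ?_) measurableSet_Ioi
  have hx' : (0:ℝ) < x := hx
  simp only
  congr 1
  have : (3:ℝ) - 1 = ((2:ℕ):ℝ) := by norm_num
  rw [this, Real.rpow_natCast]

theorem integral_g_one : ∫ x, truncExpWeight (2 * x - 2/3) ∂nu = 1 - 4 / 9 * Real.exp (-(1/3)) := by
  rw [integral_nu]
  have hi : IntegrableOn (fun x => Real.exp (-x) * truncExpWeight (2 * x - 2/3)) (Ioi 0) := by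
    rw [← integrable_nu_iff]
    refine (integrable_const (1:ℝ)).mono' ?_ (ae_of_all _ fun x => ?_)
    · exact (g_measurable.comp (by fun_prop)).aestronglyMeasurable
    · rw [Real.norm_eq_abs, abs_of_nonneg (g_nonneg _)]
      exact g_le_one _
  have hsplit : ∫ x in Ioi (0:ℝ), Real.exp (-x) * truncExpWeight (2 * x - 2/3) =
      (∫ x in Ioc (0:ℝ) (1/3), Real.exp (-x) * truncExpWeight (2 * x - 2/3)) +
      ∫ x in Ioi (1/3:ℝ), Real.exp (-x) * truncExpWeight (2 * x - 2/3) := by
    rw [← Ioc_union_Ioi_eq_Ioi (show (0:ℝ) ≤ 1/3 by norm_num)]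
    exact setIntegral_union (by
      rw [Set.disjoint_left]; intro z hz hz'; exact absurd hz' (not_lt.2 hz.2)) measurableSet_Ioi
      (hi.mono_set Ioc_subset_Ioi_self) (hi.mono_set (Ioi_subset_Ioi (by norm_num)))
  have h1 : ∫ x in Ioc (0:ℝ) (1/3), Real.exp (-x) * truncExpWeight (2 * x - 2/3) =
      1 - Real.exp (-(1/3)) := by
    have : ∫ x in Ioc (0:ℝ) (1/3), Real.exp (-x) * truncExpWeight (2 * x - 2/3) =
        ∫ x in Ioc (0:ℝ) (1/3), Real.exp (-x) := by
      refine setIntegral_congr_fun measurableSet_Ioc fun x hx => ?_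
      have : 2 * x - 2/3 ≤ 0 := by have := hx.2; linarith
      simp [truncExpWeight, this]
    have h5 : ∫ x in Ioi (0:ℝ), Real.exp (-x) = (∫ x in Ioc (0:ℝ) (1/3), Real.exp (-x)) +
        ∫ x in Ioi (1/3:ℝ), Real.exp (-x) := by
      rw [← Ioc_union_Ioi_eq_Ioi (show (0:ℝ) ≤ 1/3 by norm_num)]
      exact setIntegral_union (by
        rw [Set.disjoint_left]; intro z hz hz'; exact absurd hz' (not_lt.2 hz.2)) measurableSet_Ioi
        (integrableOn_exp_neg.mono_set Ioc_subset_Ioi_self)
        (integrableOn_exp_neg.mono_set (Ioi_subset_Ioi (by norm_num)))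
    rw [integral_exp_neg_Ioi_zero, integral_exp_neg_Ioi] at h5
    rw [this]
    linarith
  have h2 : ∫ x in Ioi (1/3:ℝ), Real.exp (-x) * truncExpWeight (2 * x - 2/3) =
      5/9 * Real.exp (-(1/3)) := by
    have h3 : ∫ x in Ioi (1/3:ℝ), Real.exp (-x) * truncExpWeight (2 * x - 2/3) =
        ∫ x in Ioi (1/3:ℝ), Real.exp (2/3) * (1/3 * Real.exp (-(3 * x)) + 2 * (x * Real.exp (-(3 * x)))) := by
      refine setIntegral_congr_fun measurableSet_Ioi fun x hx => ?_
      have hx' : 1/3 < x := hx
      have : ¬ (2 * x - 2/3 ≤ 0) := by linarith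
      simp only [truncExpWeight, this, if_false]
      have e : Real.exp (-x) * Real.exp (-(2 * x - 2/3)) = Real.exp (2/3) * Real.exp (-(3 * x)) := by
        rw [← Real.exp_add, ← Real.exp_add]; congr 1; ring
      calc Real.exp (-x) * ((1 + (2 * x - 2/3)) * Real.exp (-(2 * x - 2/3)))
          = (1/3 + 2 * x) * (Real.exp (-x) * Real.exp (-(2 * x - 2/3))) := by ring
        _ = _ := by rw [e]; ring
    obtain ⟨hI, hV⟩ := integrableOn_mul_exp (show (0:ℝ) < 3 by norm_num) (1/3)
    have hE : IntegrableOn (fun x : ℝ => Real.exp (-(3 * x))) (Ioi (1/3)) := by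
      have := integrableOn_exp_mul_Ioi (a := -3) (by norm_num) (1/3)
      simpa using this
    have hEV : ∫ x in Ioi (1/3:ℝ), Real.exp (-(3 * x)) = Real.exp (-1) / 3 := by
      have := integral_exp_mul_Ioi (a := -3) (by norm_num) (1/3)
      simp only [neg_mul] at this
      rw [this]
      norm_num
    rw [h3, integral_const_mul, integral_add (hE.const_mul _) (hI.const_mul _), integral_const_mul,
      integral_const_mul, hV, hEV]
    have e : Real.exp (2/3) * Real.exp (-1) = Real.exp (-(1/3)) := by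
      rw [← Real.exp_add]; norm_num
    have e2 : (-(3 * (1/3:ℝ))) = -1 := by norm_num
    rw [e2, ← e]
    ring
  rw [hsplit, h1, h2]
  ring

theorem lower (δ : ℝ) (hδ : 0 < δ) : ∃ (N : ℕ) (a : Fin N → ℝ), 1 ≤ N ∧ ∑ i, a i = 0 ∧
    1 - 4 / 9 * Real.exp (-(1/3)) - δ < ∫ x, truncExpWeight (4 / 3 + ∑ i, a i * x i) ∂(P N) := by
  set V : ℝ := Var[fun x : ℝ => x; nu] with hV
  have hV0 : 0 ≤ V := variance_nonneg _ _
  obtain ⟨n, hn⟩ := exists_nat_gt (4 * V / δ ^ 2 + 1)
  have hn1 : (1:ℝ) < n := by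
    have : 0 ≤ 4 * V / δ ^ 2 := by positivity
    linarith
  have hn0 : (0:ℝ) < n := by linarith
  set a : Fin (n+1) → ℝ := Fin.cons 2 (fun _ => -(2 / (n:ℝ))) with ha
  have hasum : ∑ i, a i = 0 := by
    rw [Fin.sum_univ_succ]
    simp only [ha, Fin.cons_zero, Fin.cons_succ, Finset.sum_const, Finset.card_univ, Fintype.card_fin,
      nsmul_eq_mul]
    field_simp
    ring
  refine ⟨n + 1, a, by omega, hasum, ?_⟩
  set d : Fin (n+1) → ℝ := Fin.cons 0 (fun _ => -(2 / (n:ℝ))) with hd
  have hdsum : ∑ i, d i = -2 := by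
    rw [Fin.sum_univ_succ]
    simp only [hd, Fin.cons_zero, Fin.cons_succ, Finset.sum_const, Finset.card_univ, Fintype.card_fin,
      nsmul_eq_mul]
    field_simp
    ring
  set Y : (Fin (n+1) → ℝ) → ℝ := fun x => ∑ i, d i * x i with hY
  have haY : ∀ x : Fin (n+1) → ℝ, ∑ i, a i * x i = 2 * x 0 + Y x := by
    intro x
    simp only [hY]
    rw [Fin.sum_univ_succ, Fin.sum_univ_succ]
    simp [ha, hd]
  obtain ⟨hYi, hYm⟩ := integral_lin d
  rw [hdsum] at hYm
  have hmem : ∀ i : Fin (n+1), MemLp (fun x : ℝ => d i * x) 2 nu := by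
    intro i
    have : MemLp (fun x : ℝ => x) 2 nu := by
      rw [memLp_two_iff_integrable_sq integrable_id_nu.aestronglyMeasurable]
      exact integrable_sq_nu
    exact this.const_mul _
  have hvar : Var[Y; P (n+1)] = 4 * V / n := by
    have h1 := variance_sum_pi (μ := fun _ : Fin (n+1) => nu) hmem
    have h2 : (∑ i, fun ω : Fin (n+1) → ℝ => d i * ω i) = Y := by
      ext x
      simp [hY]
    rw [h2] at h1
    unfold P
    rw [h1]
    have h3 : ∀ i, Var[fun x : ℝ => d i * x; nu] = d i ^ 2 * V := fun i => by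
      rw [variance_const_mul]
    simp only [h3]
    rw [Fin.sum_univ_succ]
    simp only [hd, Fin.cons_zero, Fin.cons_succ, Finset.sum_const, Finset.card_univ, Fintype.card_fin,
      nsmul_eq_mul]
    field_simp
    ring
  have hYmem : MemLp Y 2 (P (n+1)) := by
    unfold P
    have : Y = fun x => ∑ i, d i * x i := rfl
    rw [this]
    refine memLp_finsetSum _ fun i _ => ?_
    exact (hmem i).comp_measurePreserving (measurePreserving_eval (fun _ : Fin (n+1) => nu) i)
  have hsq : ∫ x, (Y x + 2) ^ 2 ∂(P (n+1)) = 4 * V / n := by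
    rw [← hvar, variance_eq_integral hYmem.aestronglyMeasurable.aemeasurable, hYm]
    simp
  have hsqi : Integrable (fun x => (Y x + 2) ^ 2) (P (n+1)) :=
    (hYmem.add (memLp_const 2)).integrable_sq
  -- lower bound pointwise
  have hpt : ∀ x : Fin (n+1) → ℝ, truncExpWeight (2 * x 0 - 2/3) - (δ / 2 + (Y x + 2) ^ 2 / (2 * δ)) ≤
      truncExpWeight (4/3 + ∑ i, a i * x i) := by
    intro x
    have h1 := g_lip (2 * x 0 - 2/3) (4/3 + ∑ i, a i * x i)
    rw [haY x] at h1 ⊢
    have e : 4/3 + (2 * x 0 + Y x) - (2 * x 0 - 2/3) = Y x + 2 := by ring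
    rw [e] at h1
    have h2 : |Y x + 2| ≤ δ / 2 + (Y x + 2) ^ 2 / (2 * δ) := by
      have h3 : 0 ≤ (|Y x + 2| - δ) ^ 2 := sq_nonneg _
      have h4 : |Y x + 2| ^ 2 = (Y x + 2) ^ 2 := sq_abs _
      have h5 : |Y x + 2| * (2 * δ) ≤ (δ / 2 + (Y x + 2) ^ 2 / (2 * δ)) * (2 * δ) := by
        have : (δ / 2 + (Y x + 2) ^ 2 / (2 * δ)) * (2 * δ) = δ ^ 2 + (Y x + 2) ^ 2 := by
          field_simp
        rw [this]
        nlinarith
      exact le_of_mul_le_mul_right h5 (by positivity)
    linarith
  have hg1i : Integrable (fun x : Fin (n+1) → ℝ => truncExpWeight (2 * x 0 - 2/3)) (P (n+1)) := by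
    refine (integrable_const (1:ℝ)).mono' ?_ (ae_of_all _ fun x => ?_)
    · exact (g_measurable.comp (by fun_prop)).aestronglyMeasurable
    · rw [Real.norm_eq_abs, abs_of_nonneg (g_nonneg _)]
      exact g_le_one _
  have hg2i : Integrable (fun x : Fin (n+1) → ℝ => truncExpWeight (4/3 + ∑ i, a i * x i)) (P (n+1)) := by
    refine (integrable_const (1:ℝ)).mono' ?_ (ae_of_all _ fun x => ?_)
    · exact (g_measurable.comp (by fun_prop)).aestronglyMeasurable
    · rw [Real.norm_eq_abs, abs_of_nonneg (g_nonneg _)]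
      exact g_le_one _
  have hremi : Integrable (fun x => δ / 2 + (Y x + 2) ^ 2 / (2 * δ)) (P (n+1)) :=
    (integrable_const _).add (hsqi.div_const _)
  have hmono := integral_mono (hg1i.sub hremi) hg2i hpt
  have h1 : ∫ x : Fin (n+1) → ℝ, truncExpWeight (2 * x 0 - 2/3) ∂(P (n+1)) =
      1 - 4 / 9 * Real.exp (-(1/3)) := by
    rw [← integral_g_one]
    unfold P
    exact integral_comp_eval (μ := fun _ : Fin (n+1) => nu) (i := 0)
      (f := fun x : ℝ => truncExpWeight (2 * x - 2/3))
      ((g_measurable.comp (by fun_prop)).aestronglyMeasurable)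
  have h2 : ∫ x, (δ / 2 + (Y x + 2) ^ 2 / (2 * δ)) ∂(P (n+1)) = δ / 2 + (4 * V / n) / (2 * δ) := by
    have h5 : ∫ x, (Y x + 2) ^ 2 / (2 * δ) ∂(P (n+1)) = (4 * V / n) / (2 * δ) := by
      rw [integral_div, hsq]
    rw [integral_add (f := fun _ => δ / 2) (integrable_const _) (hsqi.div_const _), h5]
    simp
  have h3 : ∫ x, (truncExpWeight (2 * x 0 - 2/3) - (δ / 2 + (Y x + 2) ^ 2 / (2 * δ))) ∂(P (n+1)) =
      1 - 4 / 9 * Real.exp (-(1/3)) - (δ / 2 + (4 * V / n) / (2 * δ)) := by
    rw [integral_sub hg1i hremi, h1, h2]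
  have h4 : (4 * V / n) / (2 * δ) < δ / 2 := by
    rw [div_lt_iff₀ (by positivity), div_lt_iff₀ hn0]
    have h5 : 4 * V / δ ^ 2 < n := by linarith
    rw [div_lt_iff₀ (by positivity)] at h5
    nlinarith
  have hmono' : ∫ x, (truncExpWeight (2 * x 0 - 2/3) - (δ / 2 + (Y x + 2) ^ 2 / (2 * δ))) ∂(P (n+1)) ≤
      ∫ x, truncExpWeight (4 / 3 + ∑ i, a i * x i) ∂(P (n+1)) := hmono
  rw [h3] at hmono'
  linarith

end Crest.Agent.H24
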